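import Vale.Agent.P097.H394.Zone
import Vale.Agent.P097.TC.Defs5

/-!
# P097 / case [c] / ZONE with uniform constants at mid-level, R2-free start

`zone_c`: on a connected set on which the line moves by less than `ρ₀` from its value at an
R2-free mid-level point, the position stays mid-level and R2-free.  No compactness in `Re θ`
(periodicity of the curve).
-/

set_option linter.all false

open Complex Metric Filter Topology Set
open scoped ComplexConjugate

namespace Vale.Agent.P097.H561.ZoneC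

open Vale.Agent.P097.TC Vale.Agent.P097.A5

variable {Λ H : ℝ} {F q : ℂ → ℂ}

theorem mem_add {x : ℂ} (hx : x ∈ Sb H) (n : ℤ) : x + n ∈ Sb H := by
  show |(x + n).im| < H
  have : (x + (n : ℂ)).im = x.im := by simp
  rw [this]; exact hx

theorem F_nat (h : Crv Λ H F q) (n : ℕ) {x : ℂ} (hx : x ∈ Sb H) :
    F (x + n) = F x + 2 * Real.pi * n ∧ q (x + n) = q x := by
  induction n with
  | zero => simp
  | succ n ih =>
    have h1 : x + n ∈ Sb H := by simpa using mem_add hx n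
    have e : x + ((n + 1 : ℕ) : ℂ) = (x + n) + 1 := by push_cast; ring
    rw [e, h.Fp _ h1, h.qp _ h1, ih.1, ih.2]
    push_cast
    constructor
    · ring
    · rfl

theorem F_int (h : Crv Λ H F q) (n : ℤ) {x : ℂ} (hx : x ∈ Sb H) :
    F (x + n) = F x + 2 * Real.pi * n ∧ q (x + n) = q x := by
  obtain ⟨m, rfl | rfl⟩ := n.eq_nat_or_neg
  · simpa using F_nat h m hx
  · have h1 : x + ((-(m : ℤ) : ℤ) : ℂ) ∈ Sb H := mem_add hx _
    have h2 := F_nat h m h1
    have e : x + ((-(m : ℤ) : ℤ) : ℂ) + (m : ℂ) = x := by push_cast; ring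
    rw [e] at h2
    constructor
    · rw [h2.1]; push_cast; ring
    · exact h2.2.symm

theorem dF_int (h : Crv Λ H F q) (n : ℤ) {x : ℂ} (hx : x ∈ Sb H) :
    deriv F (x + n) = deriv F x ∧ deriv q (x + n) = deriv q x := by
  have hn : ∀ᶠ y in 𝓝 x, y ∈ Sb H := (H394.isOpen_Sb H).mem_nhds hx
  have e1 : (fun y => F (y + n)) =ᶠ[𝓝 x] fun y => F y + 2 * Real.pi * n := by
    filter_upwards [hn] with y hy using (F_int h n hy).1
  have e2 : (fun y => q (y + n)) =ᶠ[𝓝 x] fun y => q y := by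
    filter_upwards [hn] with y hy using (F_int h n hy).2
  constructor
  · rw [← deriv_comp_add_const, e1.deriv_eq, deriv_add_const]
  · rw [← deriv_comp_add_const, e2.deriv_eq]

theorem Mi_int (h : Crv Λ H F q) (n : ℤ) {x : ℂ} (hx : x ∈ Sb H) (a p : ℂ) :
    Mi F q (a + 2 * Real.pi * n) p (x + n) = Mi F q a p x := by
  simp only [Mi]
  rw [(F_int h n hx).1, (F_int h n hx).2, (dF_int h n hx).1, (dF_int h n hx).2,
    show a + 2 * Real.pi * n - (F x + 2 * Real.pi * n) = a - F x by ring]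

/-- uniform continuity of `F` and `F'` at mid-level -/
theorem unif (h : Crv Λ H F q) {c₀ ε : ℝ} (hc : 0 < c₀) (hε : 0 < ε) : ∃ η > 0, ∀ x y : ℂ,
    |x.im| ≤ H - c₀ → ‖y - x‖ < η → |y.im| ≤ H - c₀ / 2 ∧ ‖F y - F x‖ < ε ∧
      ‖deriv F y - deriv F x‖ < ε := by
  set K : Set ℂ := (Icc (-1) 2) ×ℂ (Icc (-(H - c₀ / 2)) (H - c₀ / 2)) with hK
  have cK : IsCompact K := isCompact_Icc.reProdIm isCompact_Icc
  have hKS : K ⊆ Sb H := by
    intro x hx
    rw [hK, Complex.mem_reProdIm] at hx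
    have h1 := abs_le.2 hx.2
    show |x.im| < H
    linarith
  have u1 : UniformContinuousOn F K :=
    cK.uniformContinuousOn_of_continuous (h.cv.dF.continuousOn.mono hKS)
  have u2 : UniformContinuousOn (deriv F) K :=
    cK.uniformContinuousOn_of_continuous
      ((h.cv.dF.deriv (H394.isOpen_Sb H)).continuousOn.mono hKS)
  obtain ⟨η₁, k1, k2⟩ := Metric.uniformContinuousOn_iff.1 u1 ε hε
  obtain ⟨η₂, k3, k4⟩ := Metric.uniformContinuousOn_iff.1 u2 ε hε
  refine ⟨min (min η₁ η₂) (min 1 (c₀ / 2)), by positivity, fun x y hx hy => ?_⟩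
  have hy1 : ‖y - x‖ < η₁ := hy.trans_le ((min_le_left _ _).trans (min_le_left _ _))
  have hy2 : ‖y - x‖ < η₂ := hy.trans_le ((min_le_left _ _).trans (min_le_right _ _))
  have hy3 : ‖y - x‖ < 1 := hy.trans_le ((min_le_right _ _).trans (min_le_left _ _))
  have hy4 : ‖y - x‖ < c₀ / 2 := hy.trans_le ((min_le_right _ _).trans (min_le_right _ _))
  have him : |y.im - x.im| ≤ ‖y - x‖ := by
    have := Complex.abs_im_le_norm (y - x); simpa using this
  have hre : |y.re - x.re| ≤ ‖y - x‖ := by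
    have := Complex.abs_re_le_norm (y - x); simpa using this
  have hyim : |y.im| ≤ H - c₀ / 2 := by
    have : y.im = (y.im - x.im) + x.im := by ring
    rw [this]
    exact (abs_add_le _ _).trans (by linarith)
  set n : ℤ := -⌊x.re⌋ with hn
  have hnr : (n : ℝ) = -⌊x.re⌋ := by rw [hn]; push_cast; ring
  have hfl := Int.floor_le x.re
  have hfl2 := Int.lt_floor_add_one x.re
  have hxS : x ∈ Sb H := by show |x.im| < H; linarith
  have hyS : y ∈ Sb H := by show |y.im| < H; linarith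
  have hxn : x + n ∈ K := by
    rw [hK, Complex.mem_reProdIm]
    have e1 : (x + (n : ℂ)).re = x.re - ⌊x.re⌋ := by
      rw [Complex.add_re, Complex.intCast_re, hnr]; ring
    have e2 : (x + (n : ℂ)).im = x.im := by simp
    rw [e1, e2]
    refine ⟨⟨by linarith, by linarith⟩, ?_⟩
    exact abs_le.1 (by linarith)
  have hyn : y + n ∈ K := by
    rw [hK, Complex.mem_reProdIm]
    have e1 : (y + (n : ℂ)).re = y.re - ⌊x.re⌋ := by
      rw [Complex.add_re, Complex.intCast_re, hnr]; ring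
    have e2 : (y + (n : ℂ)).im = y.im := by simp
    rw [e1, e2]
    have h3 := abs_le.1 hre
    refine ⟨⟨by linarith [h3.1], by linarith [h3.2]⟩, ?_⟩
    exact abs_le.1 hyim
  have hd : dist (y + (n : ℂ)) (x + n) = ‖y - x‖ := by
    rw [dist_eq_norm]; congr 1; ring
  have r1 := k2 _ hyn _ hxn (by rw [hd]; exact hy1)
  have r2 := k4 _ hyn _ hxn (by rw [hd]; exact hy2)
  rw [dist_eq_norm, (F_int h n hyS).1, (F_int h n hxS).1] at r1
  rw [dist_eq_norm, (dF_int h n hyS).1, (dF_int h n hxS).1] at r2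
  refine ⟨hyim, ?_, r2⟩
  have e : F y + 2 * Real.pi * n - (F x + 2 * Real.pi * n) = F y - F x := by ring
  rwa [e] at r1

/-- **ZONE, uniform form** -/
theorem zone_c (h : Crv Λ H F q) {c₀ δ R : ℝ} (hc : 0 < c₀) (hδ : 0 < δ) :
    ∃ ρ₀ > 0, ∀ {X : Type*} [TopologicalSpace X] {T : Set X} {a p x : X → ℂ}
      {z₀ : X}, IsPreconnected T → z₀ ∈ T → ContinuousOn x T → |(x z₀).im| ≤ H - c₀ →
      δ ≤ ‖deriv F (x z₀)‖ → |(a z₀).im| ≤ R →
      (∀ z ∈ T, ‖a z - a z₀‖ < ρ₀ ∧ ‖p z - p z₀‖ < ρ₀ ∧ x z ∈ Sb H ∧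
        Mi F q (a z) (p z) (x z) = 0) → ∀ z ∈ T, |(x z).im| ≤ H - c₀ / 2 ∧
        δ / 2 ≤ ‖deriv F (x z)‖ ∧ ‖x z - x z₀‖ < 1 ∧ ‖F (x z) - F (x z₀)‖ < 1 := by
  obtain ⟨η, hη, hU⟩ := unif h hc (lt_min (half_pos hδ) one_pos)
  set K : Set ℂ := (Icc 0 1) ×ℂ (Icc (-(H - c₀)) (H - c₀)) with hK
  have cK : IsCompact K := isCompact_Icc.reProdIm isCompact_Icc
  have hKS : K ⊆ Sb H := by
    intro x hx
    rw [hK, Complex.mem_reProdIm] at hx
    have h1 := abs_le.2 hx.2
    show |x.im| < H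
    linarith
  obtain ⟨ρ₀, hρ, hz⟩ := H394.zone h.cv cK hKS R (lt_min hη one_pos)
  refine ⟨ρ₀, hρ, ?_⟩
  intro X _ T a p x z₀ hT hz₀ hxc hx₀ hxδ ha hall z hzT
  set n : ℤ := -⌊(x z₀).re⌋ with hn
  have hnr : (n : ℝ) = -⌊(x z₀).re⌋ := by rw [hn]; push_cast; ring
  have hfl := Int.floor_le (x z₀).re
  have hfl2 := Int.lt_floor_add_one (x z₀).re
  have hKx : x z₀ + n ∈ K := by
    rw [hK, Complex.mem_reProdIm]
    have e1 : (x z₀ + (n : ℂ)).re = (x z₀).re - ⌊(x z₀).re⌋ := by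
      rw [Complex.add_re, Complex.intCast_re, hnr]; ring
    have e2 : (x z₀ + (n : ℂ)).im = (x z₀).im := by simp
    rw [e1, e2]
    exact ⟨⟨by linarith, by linarith⟩, abs_le.1 hx₀⟩
  have h1 := hz (a := fun z => a z + 2 * Real.pi * n) (p := p) (x := fun z => x z + n) (z₀ := z₀)
    hT hz₀ (hxc.add continuousOn_const) hKx (by
      have : (a z₀ + 2 * Real.pi * n : ℂ).im = (a z₀).im := by
        have e : (2 * Real.pi * n : ℂ) = ((2 * Real.pi * n : ℝ) : ℂ) := by push_cast; ring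
        rw [e]; simp
      show |(a z₀ + 2 * Real.pi * n : ℂ).im| ≤ R
      rw [this]; exact ha)
    (fun z hz => by
      obtain ⟨k1, k2, k3, k4⟩ := hall z hz
      refine ⟨?_, k2, mem_add k3 n, ?_⟩
      · have e : a z + 2 * Real.pi * n - (a z₀ + 2 * Real.pi * n) = a z - a z₀ := by ring
        show ‖a z + 2 * Real.pi * n - (a z₀ + 2 * Real.pi * n)‖ < ρ₀
        rw [e]; exact k1
      · show Mi F q (a z + 2 * Real.pi * n) (p z) (x z + n) = 0
        rw [Mi_int h n k3, k4]) z hzT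
  have h2 : ‖x z - x z₀‖ < min η 1 := by
    have e : x z + (n : ℂ) - (x z₀ + n) = x z - x z₀ := by ring
    have h3 : ‖x z + (n : ℂ) - (x z₀ + n)‖ < min η 1 := h1
    rwa [e] at h3
  obtain ⟨k1, k2, k3⟩ := hU _ _ hx₀ (h2.trans_le (min_le_left _ _))
  refine ⟨k1, ?_, h2.trans_le (min_le_right _ _), k2.trans_le (min_le_right _ _)⟩
  have h4 := k3.trans_le (min_le_left _ _)
  have h5 := norm_sub_norm_le (deriv F (x z₀)) (deriv F (x z))
  rw [norm_sub_rev] at h5
  linarith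

end Vale.Agent.P097.H561.ZoneC
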