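import Vale.Agent.P097.H561.StepW
import Vale.Agent.P097.H561.ZoneC
import Vale.Agent.P097.H226.W.Defs
import Vale.Agent.P097.H845.St.Chain

/-!
# P097 / case [c] / block T in straight coordinates, row ST-3: ANCESTORS of the pick

`anc_st`: from R2-free mid-level points `β h` in the boxes over the apex of the pick at all scales
`h ≥ D` and the decay (H) of the oscillation between `r` and `D`: all ancestors of the pick are
mid-level (`Md`), `Vq` is bounded, the lines are bounded, with uniform constants.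
-/

set_option linter.all false

open Complex Metric Filter Topology Set
open scoped ComplexConjugate

namespace Vale.Agent.P097.H561.Anc

open Vale.Agent.P097.TC Vale.Agent.P097.H226.W Vale.Agent.P097.H561.Step
  Vale.Agent.P097.H561.ZoneC Vale.Agent.P097.H845.St
open Vale.Agent.P097.A5 (Crv)

/-- apex -/
noncomputable def apx (y x : ℝ) : ℂ × ℂ := ((y : ℂ), (x : ℂ))

theorem pt_eq (y x h : ℝ) : ax h + apx y x = pt y x h := by
  unfold pt ax apx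
  ext1 <;> simp <;> ring

theorem norm_le_two {z : ℂ × ℂ} {M : ℝ} (h1 : |z.1.re| ≤ M) (h2 : |z.1.im| ≤ M)
    (h3 : |z.2.re| ≤ M) (h4 : |z.2.im| ≤ M) : ‖z‖ ≤ 2 * M := by
  rw [Prod.norm_def]
  refine max_le ?_ ?_
  · exact (Complex.norm_le_abs_re_add_abs_im _).trans (by linarith)
  · exact (Complex.norm_le_abs_re_add_abs_im _).trans (by linarith)

theorem cvx {a b t m : ℝ} (h0 : 0 ≤ t) (h1 : t ≤ 1) (ha : m ≤ a) (hb : m ≤ b) :
    m ≤ a + t * (b - a) := by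
  nlinarith [mul_nonneg h0 (sub_nonneg.2 hb), mul_nonneg (sub_nonneg.2 h1) (sub_nonneg.2 ha)]

theorem cvx' {a b t m : ℝ} (h0 : 0 ≤ t) (h1 : t ≤ 1) (ha : a ≤ m) (hb : b ≤ m) :
    a + t * (b - a) ≤ m := by
  nlinarith [mul_nonneg h0 (sub_nonneg.2 hb), mul_nonneg (sub_nonneg.2 h1) (sub_nonneg.2 ha)]

/-- points with a ball of radius `w` in the base region -/
def Kx (w : ℝ) : Set (ℂ × ℂ) :=
  {z | |z.1.re| ≤ 1 - w ∧ |z.1.im| ≤ 1 - w ∧ |z.2.re| ≤ 1 - w ∧ |z.2.im| ≤ 1 - w ∧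
    w ≤ -z.1.im ∧ w ≤ z.2.im}

theorem Kx_ball {w : ℝ} {z : ℂ × ℂ} (hz : z ∈ Kx w) : ball z w ⊆ Bx 1 ∩ Qu := by
  intro v hv
  rw [mem_ball, dist_eq_norm] at hv
  obtain ⟨a1, a2, a3, a4, a5, a6⟩ := hz
  have f1 : ‖v.1 - z.1‖ < w := (norm_fst_le (v - z)).trans_lt hv
  have f2 : ‖v.2 - z.2‖ < w := (norm_snd_le (v - z)).trans_lt hv
  have g1 := abs_lt.1 ((Complex.abs_re_le_norm (v.1 - z.1)).trans_lt f1)
  have g2 := abs_lt.1 ((Complex.abs_im_le_norm (v.1 - z.1)).trans_lt f1)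
  have g3 := abs_lt.1 ((Complex.abs_re_le_norm (v.2 - z.2)).trans_lt f2)
  have g4 := abs_lt.1 ((Complex.abs_im_le_norm (v.2 - z.2)).trans_lt f2)
  rw [Complex.sub_re] at g1 g3
  rw [Complex.sub_im] at g2 g4
  have b1 := abs_le.1 a1
  have b2 := abs_le.1 a2
  have b3 := abs_le.1 a3
  have b4 := abs_le.1 a4
  refine ⟨⟨abs_lt.2 ⟨?_, ?_⟩, abs_lt.2 ⟨?_, ?_⟩, abs_lt.2 ⟨?_, ?_⟩, abs_lt.2 ⟨?_, ?_⟩⟩, ?_, ?_⟩ <;>
    linarith

theorem Kx_seg {w : ℝ} {a b : ℂ × ℂ} (ha : a ∈ Kx w) (hb : b ∈ Kx w) {z : ℂ × ℂ}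
    (hz : z ∈ segment ℝ a b) : z ∈ Kx w := by
  rw [segment_eq_image'] at hz
  obtain ⟨t, ⟨h0, h1⟩, rfl⟩ := hz
  obtain ⟨a1, a2, a3, a4, a5, a6⟩ := ha
  obtain ⟨b1, b2, b3, b4, b5, b6⟩ := hb
  have e1 : (a + t • (b - a)).1.re = a.1.re + t * (b.1.re - a.1.re) := by simp
  have e2 : (a + t • (b - a)).1.im = a.1.im + t * (b.1.im - a.1.im) := by simp
  have e3 : (a + t • (b - a)).2.re = a.2.re + t * (b.2.re - a.2.re) := by simp
  have e4 : (a + t • (b - a)).2.im = a.2.im + t * (b.2.im - a.2.im) := by simp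
  rw [abs_le] at a1 a2 a3 a4 b1 b2 b3 b4
  refine ⟨?_, ?_, ?_, ?_, ?_, ?_⟩
  · show |(a + t • (b - a)).1.re| ≤ 1 - w
    rw [e1]; exact abs_le.2 ⟨cvx h0 h1 a1.1 b1.1, cvx' h0 h1 a1.2 b1.2⟩
  · show |(a + t • (b - a)).1.im| ≤ 1 - w
    rw [e2]; exact abs_le.2 ⟨cvx h0 h1 a2.1 b2.1, cvx' h0 h1 a2.2 b2.2⟩
  · show |(a + t • (b - a)).2.re| ≤ 1 - w
    rw [e3]; exact abs_le.2 ⟨cvx h0 h1 a3.1 b3.1, cvx' h0 h1 a3.2 b3.2⟩
  · show |(a + t • (b - a)).2.im| ≤ 1 - w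
    rw [e4]; exact abs_le.2 ⟨cvx h0 h1 a4.1 b4.1, cvx' h0 h1 a4.2 b4.2⟩
  · show w ≤ -(a + t • (b - a)).1.im
    rw [e2]
    have := cvx' (m := -w) h0 h1 (by linarith : a.1.im ≤ -w) (by linarith : b.1.im ≤ -w)
    linarith
  · show w ≤ (a + t • (b - a)).2.im
    rw [e4]; exact cvx h0 h1 a6 b6

/-- convex chain -/
theorem chn_seg {w : ℝ} {a b : ℂ × ℂ} {N : ℕ} (hw : 0 < w) (hN : 0 < N)
    (hab : ‖b - a‖ ≤ N * (w / 160)) (ha : a ∈ Kx w) (hb : b ∈ Kx w) :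
    Chn (Bx 1 ∩ Qu) w N (fun i => a + ((i : ℝ) / N) • (b - a)) := by
  have hN0 : (0 : ℝ) < N := by exact_mod_cast hN
  refine ⟨hw, fun i hi => Kx_ball (Kx_seg ha hb ?_), fun i hi => ?_⟩
  · rw [segment_eq_image']
    refine ⟨(i : ℝ) / N, ⟨by positivity, ?_⟩, rfl⟩
    rw [div_le_one hN0]
    exact_mod_cast hi
  · have e : (a + (((i + 1 : ℕ) : ℝ) / N) • (b - a)) - (a + ((i : ℝ) / N) • (b - a)) =
        (1 / (N : ℝ)) • (b - a) := by
      rw [add_sub_add_left_eq_sub, ← sub_smul]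
      congr 1
      push_cast
      ring
    show ‖(a + (((i + 1 : ℕ) : ℝ) / N) • (b - a)) - (a + ((i : ℝ) / N) • (b - a))‖ ≤ w / 160
    rw [e, norm_smul, Real.norm_of_nonneg (by positivity)]
    calc 1 / (N : ℝ) * ‖b - a‖ ≤ 1 / (N : ℝ) * (N * (w / 160)) := by gcongr
      _ = w / 160 := by field_simp

variable {Λ b : ℝ} {F q : ℂ → ℂ}

theorem fun_of_sq {ρ : ℝ} {al p th : ℂ × ℂ → ℂ}
    (W : SQ Λ b F q ρ al p th) : Fun b F q (Bx ρ ∩ Qu) al p th :=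
  ⟨W.dal, W.dp, W.dth, W.mem, W.inc, W.smp⟩

/-- transport inside the base region -/
theorem tr (crv : Crv Λ b F q) {e R : ℝ} (he : 0 < e) {X' om : ℝ} (hX : 0 < X') (hom : 0 < om) :
    ∃ c₁ > 0, ∃ C₁ > 0, ∀ {al p th : ℂ × ℂ → ℂ}, Fun b F q (Bx 1 ∩ Qu) al p th →
    ∀ {h : ℝ} {β γ : ℂ × ℂ}, 0 < h → β ∈ Kx (om * h) → γ ∈ Kx (om * h) → ‖γ - β‖ ≤ X' * h →
    |(th β).im| ≤ b - e → e ≤ ‖deriv F (th β)‖ → |(al β).im| ≤ R →
    |(th γ).im| ≤ b - c₁ ∧ |(al γ).im| ≤ C₁ ∧ ‖p γ‖ ≤ C₁ ∧ ‖al γ - al β‖ ≤ C₁ := by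
  set N : ℕ := ⌈160 * X' / om⌉₊ + 1 with hN
  obtain ⟨c₁, h1, C₁, h2, h3⟩ := step crv.cv (bdd_of_gro crv.gro) (C₀ := R) he he N
  refine ⟨c₁, h1, C₁, h2, ?_⟩
  intro al p th W h β γ hh hβ hγ hd a1 a2 a3
  have hN1 : 160 * X' / om ≤ N := by
    rw [hN]; push_cast
    linarith [Nat.le_ceil (160 * X' / om)]
  have hN0 : (0 : ℝ) < N := lt_of_lt_of_le (by positivity) hN1
  have hNn : 0 < N := by rw [hN]; omega
  have hab : ‖γ - β‖ ≤ N * (om * h / 160) := by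
    rw [div_le_iff₀ hom] at hN1
    calc ‖γ - β‖ ≤ X' * h := hd
      _ = (160 * X') * h / 160 := by ring
      _ ≤ (N * om) * h / 160 := by gcongr
      _ = _ := by ring
  have hc := chn_seg (by positivity) hNn hab hβ hγ
  set zz : ℕ → ℂ × ℂ := fun i => β + ((i : ℝ) / N) • (γ - β) with hzz
  have e0 : zz 0 = β := by rw [hzz]; simp
  have eN : zz N = γ := by
    show β + ((N : ℝ) / N) • (γ - β) = γ
    rw [div_self hN0.ne', one_smul]; abel
  have h4 := h3 W hc (by rw [e0]; exact a1) (by rw [e0]; exact a2) (by rw [e0]; exact a3) γ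
    (by rw [eN, sub_self, norm_zero]; positivity)
  rw [e0] at h4
  exact ⟨h4.1, h4.2.1, h4.2.2.1, h4.2.2.2.1⟩

/-- bound of `log |E|` -/
theorem gg_bd (crv : Crv Λ b F q) {c₁ C₁ : ℝ} (hc : 0 < c₁) : ∃ V : ℝ, 0 ≤ V ∧
    ∀ {al th : ℂ × ℂ → ℂ} {z : ℂ × ℂ}, |(th z).im| ≤ b - c₁ → |(al z).im| ≤ C₁ →
      |(gg F al th z).re| ≤ V := by
  obtain ⟨M, hM⟩ := bdd_of_gro crv.gro c₁ hc
  have hb := crv.cv.b0
  refine ⟨max (2 * (C₁ + (M + 2 * Real.pi * b))) 0, le_max_right _ _, ?_⟩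
  intro al th z h1 h2
  refine le_trans ?_ (le_max_left _ _)
  have h3 := (hM _ h1).1
  have h4 : (F (th z)).im = (F (th z) - 2 * Real.pi * th z).im + 2 * Real.pi * (th z).im := by
    have : (2 * Real.pi * th z : ℂ).im = 2 * Real.pi * (th z).im := by
      rw [show (2 * Real.pi * th z : ℂ) = ((2 * Real.pi : ℝ) : ℂ) * th z by push_cast; ring,
        Complex.im_ofReal_mul]
    rw [Complex.sub_im, this]; ring
  have h5 : |2 * Real.pi * (th z).im| ≤ 2 * Real.pi * b := by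
    rw [abs_mul, abs_of_pos (by positivity : (0 : ℝ) < 2 * Real.pi)]
    gcongr
    linarith
  have h6 : |(F (th z)).im| ≤ M + 2 * Real.pi * b := by
    rw [h4]
    refine (abs_add_le _ _).trans ?_
    linarith [(Complex.abs_im_le_norm (F (th z) - 2 * Real.pi * th z))]
  have h7 : (gg F al th z).re = -(2 * ((al z).im - (F (th z)).im)) := by
    unfold gg; simp
  rw [h7, abs_neg, abs_mul, abs_two]
  have h8 := abs_sub (al z).im (F (th z)).im
  linarith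

/-- telescoping of (H) -/
theorem tel {L : ℂ × ℂ → ℂ × ℂ} {X om C₀ y x r D : ℝ} (hX : 2 ≤ X) (hom0 : 0 < om)
    (hom : om ≤ 1 / 2) (hC : 0 ≤ C₀) (hr : 0 < r)
    (hH : ∀ h, r ≤ h → h ≤ D → C₀ * (r / h) ^ 2 < 1 → ∀ z ∈ Pc X om y x h, ∀ z' ∈ Pc X om y x h,
      ‖L z - L z'‖ ≤ C₀ * (r / h) ^ 2) :
    ∀ n : ℕ, ∀ t, r ≤ t → t ≤ D → D ≤ 2 ^ n * t → C₀ * (r / t) ^ 2 < 1 →
      ∀ z ∈ Pc X om y x t, ∀ z' ∈ Pc X om y x D, ‖L z - L z'‖ ≤ 2 * C₀ * (r / t) ^ 2 := by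
  intro n
  induction n with
  | zero =>
    intro t h1 h2 h3 h4 z hz z' hz'
    rw [pow_zero, one_mul] at h3
    have h5 : t = D := le_antisymm h2 h3
    subst h5
    have h6 := hH t h1 le_rfl h4 z hz z' hz'
    have h7 : 0 ≤ C₀ * (r / t) ^ 2 := by positivity
    linarith
  | succ n ih =>
    intro t h1 h2 h3 h4 z hz z' hz'
    have ht : 0 < t := hr.trans_le h1
    rcases le_total D (2 * t) with h5 | h5
    · have hD : 0 < D := ht.trans_le h2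
      have m1 : pt y x D ∈ Pc X om y x t := by
        refine pt_mem_Pc ?_ ?_ ?_ ?_
        · rw [sub_self, abs_zero]; positivity
        · rw [sub_self, abs_zero]; positivity
        · nlinarith
        · nlinarith
      have m2 : pt y x D ∈ Pc X om y x D := pt_self hX hom hD
      have k1 : (r / D) ^ 2 ≤ (r / t) ^ 2 := by gcongr
      have k2 : C₀ * (r / D) ^ 2 ≤ C₀ * (r / t) ^ 2 := by gcongr
      have h6 := hH t h1 h2 h4 z hz _ m1
      have h7 := hH D (h1.trans h2) le_rfl (k2.trans_lt h4) _ m2 z' hz'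
      calc ‖L z - L z'‖ = ‖(L z - L (pt y x D)) + (L (pt y x D) - L z')‖ := by
            congr 1; abel
        _ ≤ _ := norm_add_le _ _
        _ ≤ _ := by linarith
    · have m1 : pt y x (2 * t) ∈ Pc X om y x t := pt_double hX hom ht
      have m2 : pt y x (2 * t) ∈ Pc X om y x (2 * t) := pt_self hX hom (by positivity)
      have k0 : (r / (2 * t)) ^ 2 = (r / t) ^ 2 / 4 := by field_simp; norm_num
      have k1 : 0 ≤ (r / t) ^ 2 := by positivity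
      have k2 : C₀ * (r / (2 * t)) ^ 2 < 1 := by
        rw [k0]
        have : 0 ≤ C₀ * (r / t) ^ 2 := by positivity
        linarith
      have h6 := hH t h1 h2 h4 z hz _ m1
      have h7 := ih (2 * t) (by linarith) h5 (by
        have : (2 : ℝ) ^ (n + 1) * t = 2 ^ n * (2 * t) := by ring
        linarith) k2 _ m2 z' hz'
      rw [k0] at h7
      have h8 : 0 ≤ C₀ * (r / t) ^ 2 := by positivity
      calc ‖L z - L z'‖ = ‖(L z - L (pt y x (2 * t))) + (L (pt y x (2 * t)) - L z')‖ := by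
            congr 1; abel
        _ ≤ _ := norm_add_le _ _
        _ ≤ _ := by linarith

/-- boxes lie in the base region -/
theorem Pc_Kx {X om y x h w : ℝ} (hw : w ≤ om * h) (hy : |y| + X * h + w ≤ 1)
    (hx : |x| + X * h + w ≤ 1) {z : ℂ × ℂ} (hz : z ∈ Pc X om y x h) : z ∈ Kx w := by
  obtain ⟨h1, h2, h3, h4, h5, h6⟩ := hz
  have g1 := abs_le.1 h1
  have g2 := abs_le.1 h2
  have gy := abs_le.1 (le_refl |y|)
  have gx := abs_le.1 (le_refl |x|)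
  have n1 := abs_nonneg y
  have n2 := abs_nonneg x
  have hXh : w ≤ X * h := hw.trans (h3.trans h4)
  refine ⟨abs_le.2 ⟨by linarith, by linarith⟩, abs_le.2 ⟨by linarith, by linarith⟩,
    abs_le.2 ⟨by linarith, by linarith⟩, abs_le.2 ⟨by linarith, by linarith⟩, by linarith,
    by linarith⟩

theorem Pc_seg {X om y x h : ℝ} {a b : ℂ × ℂ} (ha : a ∈ Pc X om y x h) (hb : b ∈ Pc X om y x h)
    {z : ℂ × ℂ} (hz : z ∈ segment ℝ a b) : z ∈ Pc X om y x h := by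
  rw [segment_eq_image'] at hz
  obtain ⟨t, ⟨h0, h1⟩, rfl⟩ := hz
  obtain ⟨a1, a2, a3, a4, a5, a6⟩ := ha
  obtain ⟨b1, b2, b3, b4, b5, b6⟩ := hb
  have e1 : (a + t • (b - a)).1.re = a.1.re + t * (b.1.re - a.1.re) := by simp
  have e2 : (a + t • (b - a)).1.im = a.1.im + t * (b.1.im - a.1.im) := by simp
  have e3 : (a + t • (b - a)).2.re = a.2.re + t * (b.2.re - a.2.re) := by simp
  have e4 : (a + t • (b - a)).2.im = a.2.im + t * (b.2.im - a.2.im) := by simp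
  rw [abs_le] at a1 a2 b1 b2
  refine ⟨?_, ?_, ?_, ?_, ?_, ?_⟩
  · show |(a + t • (b - a)).1.re - y| ≤ X * h
    rw [e1]
    have k1 := cvx (m := y - X * h) h0 h1 (by linarith [a1.1] : y - X * h ≤ a.1.re)
      (by linarith [b1.1] : y - X * h ≤ b.1.re)
    have k2 := cvx' (m := y + X * h) h0 h1 (by linarith [a1.2] : a.1.re ≤ y + X * h)
      (by linarith [b1.2] : b.1.re ≤ y + X * h)
    exact abs_le.2 ⟨by linarith, by linarith⟩
  · show |(a + t • (b - a)).2.re - x| ≤ X * h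
    rw [e3]
    have k1 := cvx (m := x - X * h) h0 h1 (by linarith [a2.1] : x - X * h ≤ a.2.re)
      (by linarith [b2.1] : x - X * h ≤ b.2.re)
    have k2 := cvx' (m := x + X * h) h0 h1 (by linarith [a2.2] : a.2.re ≤ x + X * h)
      (by linarith [b2.2] : b.2.re ≤ x + X * h)
    exact abs_le.2 ⟨by linarith, by linarith⟩
  · show om * h ≤ -(a + t • (b - a)).1.im
    rw [e2]
    have := cvx' (m := -(om * h)) h0 h1 (by linarith : a.1.im ≤ -(om * h))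
      (by linarith : b.1.im ≤ -(om * h))
    linarith
  · show -(a + t • (b - a)).1.im ≤ X * h
    rw [e2]
    have := cvx (m := -(X * h)) h0 h1 (by linarith : -(X * h) ≤ a.1.im)
      (by linarith : -(X * h) ≤ b.1.im)
    linarith
  · show om * h ≤ (a + t • (b - a)).2.im
    rw [e4]; exact cvx h0 h1 a5 b5
  · show (a + t • (b - a)).2.im ≤ X * h
    rw [e4]; exact cvx' h0 h1 a6 b6

theorem cont_pt (y x : ℝ) : Continuous (pt y x) := by
  unfold pt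
  fun_prop

/-- the boxes of depth at most `S` have room -/
theorem reg {X om y x S : ℝ} (hX0 : 0 < X) (hom0 : 0 < om) (hom : om ≤ 1 / 2) (hS0 : 0 < S)
    (hy : |y| + (X + 1) * S ≤ 1) (hx : |x| + (X + 1) * S ≤ 1) :
    ∀ s, 0 < s → s ≤ S → ∀ t, 0 < t → t ≤ s → ∀ z ∈ Pc X om y x s, z ∈ Kx (om * t) := by
  intro s hs hsS t ht hts z hz
  have h1 : om * t ≤ om * s := by gcongr
  have h2 : om * t ≤ S := by nlinarith
  have h3 : X * s ≤ X * S := by gcongr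
  exact Pc_Kx h1 (by linarith) (by linarith) hz

/-- the points of the axis over the pick, between `Λ₀ r` and `D` -/
theorem zone_part (crv : Crv Λ b F q) {X om e R C₀ : ℝ} (hX : 2 ≤ X) (hom0 : 0 < om)
    (hom : om ≤ 1 / 2) (he : 0 < e) (hC : 0 ≤ C₀) :
    ∃ Λ₀ : ℝ, 1 ≤ Λ₀ ∧ ∃ ρ₀ > 0, ∀ {al p th : ℂ × ℂ → ℂ}, SQ Λ b F q 1 al p th →
    ∀ {y x r D S : ℝ}, 0 < r → r ≤ D → D ≤ S → |y| + (X + 1) * S ≤ 1 → |x| + (X + 1) * S ≤ 1 →
    (∃ β ∈ Pc X om y x D, |(th β).im| ≤ b - e ∧ e ≤ ‖deriv F (th β)‖ ∧ |(al β).im| ≤ R) →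
    (∀ h, r ≤ h → h ≤ D → C₀ * (r / h) ^ 2 < 1 → ∀ z ∈ Pc X om y x h, ∀ z' ∈ Pc X om y x h,
      ‖((al z, p z) : ℂ × ℂ) - (al z', p z')‖ ≤ C₀ * (r / h) ^ 2) →
    ∀ t, Λ₀ * r ≤ t → t ≤ D → |(th (pt y x t)).im| ≤ b - e / 2 ∧
      e / 2 ≤ ‖deriv F (th (pt y x t))‖ ∧ |(al (pt y x t)).im| ≤ R + ρ₀ := by
  obtain ⟨ρ₀, hρ, hz⟩ := zone_c crv (c₀ := e) (δ := e) (R := R) he he
  set m : ℝ := min ρ₀ 1 with hm
  have hm0 : 0 < m := lt_min hρ one_pos
  have hmρ : m ≤ ρ₀ := min_le_left _ _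
  have hm1 : m ≤ 1 := min_le_right _ _
  set Λ₀ : ℝ := 1 + 2 * C₀ / m with hΛ
  have hΛ1 : 1 ≤ Λ₀ := by
    have : 0 ≤ 2 * C₀ / m := by positivity
    linarith
  have hΛm : 2 * C₀ < m * Λ₀ ^ 2 := by
    have h1 : 2 * C₀ < m * Λ₀ := by
      rw [hΛ, mul_add, mul_one, mul_div_cancel₀ _ hm0.ne']; linarith
    nlinarith
  have hX0 : 0 < X := by linarith
  refine ⟨Λ₀, hΛ1, ρ₀, hρ, ?_⟩
  intro al p th W y x r D S hr hrD hDS hy hx BG HH t ht htD
  have hD0 : 0 < D := hr.trans_le hrD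
  have hS0 : 0 < S := hD0.trans_le hDS
  set L : ℂ × ℂ → ℂ × ℂ := fun z => (al z, p z) with hL
  have hsmall : ∀ s, Λ₀ * r ≤ s → 2 * C₀ * (r / s) ^ 2 < m := by
    intro s hs
    have hs0 : 0 < s := lt_of_lt_of_le (by positivity) hs
    have h1 : Λ₀ ^ 2 * r ^ 2 ≤ s ^ 2 := by
      rw [← mul_pow]; exact pow_le_pow_left₀ (by positivity) hs 2
    rw [div_pow, mul_div_assoc', div_lt_iff₀ (by positivity)]
    calc 2 * C₀ * r ^ 2 < (m * Λ₀ ^ 2) * r ^ 2 := by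
          apply mul_lt_mul_of_pos_right hΛm; positivity
      _ = m * (Λ₀ ^ 2 * r ^ 2) := by ring
      _ ≤ m * s ^ 2 := by gcongr
  have hsmall1 : ∀ s, Λ₀ * r ≤ s → C₀ * (r / s) ^ 2 < 1 := by
    intro s hs
    have h1 := hsmall s hs
    have h2 : 0 ≤ C₀ * (r / s) ^ 2 := by positivity
    linarith
  have hregU : ∀ s, 0 < s → s ≤ S → ∀ z ∈ Pc X om y x s, z ∈ Bx 1 ∩ Qu := by
    intro s hs hsS z hz
    exact Kx_ball (reg hX0 hom0 hom hS0 hy hx s hs hsS s hs le_rfl z hz)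
      (mem_ball_self (by positivity))
  have hrt : r ≤ t := by nlinarith
  have ht0 : 0 < t := hr.trans_le hrt
  obtain ⟨β, hβ, b1, b2, b3⟩ := BG
  have hDD : pt y x D ∈ Pc X om y x D := pt_self hX hom hD0
  set T : Set (ℂ × ℂ) := segment ℝ β (pt y x D) ∪ (pt y x) '' Icc t D with hT
  have hTc : IsPreconnected T :=
    (convex_segment β (pt y x D)).isPreconnected.union (pt y x D) (right_mem_segment ℝ _ _)
      ⟨D, ⟨htD, le_rfl⟩, rfl⟩ (isPreconnected_Icc.image _ (cont_pt y x).continuousOn)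
  have hβT : β ∈ T := Or.inl (left_mem_segment ℝ _ _)
  have htT : pt y x t ∈ T := Or.inr ⟨t, ⟨le_rfl, htD⟩, rfl⟩
  have hTU : T ⊆ Bx 1 ∩ Qu := by
    rintro z (hz | ⟨s, ⟨hs1, hs2⟩, rfl⟩)
    · exact hregU D hD0 hDS z (Pc_seg hβ hDD hz)
    · have hs0 : 0 < s := ht0.trans_le hs1
      exact hregU s hs0 (hs2.trans hDS) _ (pt_self hX hom hs0)
  have hdist : ∀ z ∈ T, ‖L z - L β‖ < m := by
    rintro z (hz | ⟨s, ⟨hs1, hs2⟩, rfl⟩)
    · have h1 := HH D hrD le_rfl (hsmall1 D (ht.trans htD)) z (Pc_seg hβ hDD hz) β hβ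
      have h2 := hsmall D (ht.trans htD)
      have h3 : 0 ≤ C₀ * (r / D) ^ 2 := by positivity
      exact h1.trans_lt (by linarith)
    · have hs0 : 0 < s := ht0.trans_le hs1
      obtain ⟨n, hn⟩ := pow_unbounded_of_one_lt (D / s) (one_lt_two (α := ℝ))
      rw [div_lt_iff₀ hs0] at hn
      have h1 := tel (L := L) hX hom0 hom hC hr HH n s (hrt.trans hs1) hs2 hn.le
        (hsmall1 s (ht.trans hs1)) _ (pt_self hX hom hs0) β hβ
      exact h1.trans_lt (hsmall s (ht.trans hs1))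
  have h1 := hz (T := T) (a := al) (p := p) (x := th) (z₀ := β) hTc hβT
    (W.dth.continuousOn.mono hTU) b1 b2 b3 (fun z hz => by
      have k1 := (hdist z hz).trans_le hmρ
      refine ⟨(norm_fst_le (L z - L β)).trans_lt k1, (norm_snd_le (L z - L β)).trans_lt k1,
        W.mem z (hTU hz), W.inc z (hTU hz)⟩) _ htT
  refine ⟨h1.1, h1.2.1, ?_⟩
  have k1 := (hdist _ htT).trans_le hmρ
  have k2 : ‖al (pt y x t) - al β‖ < ρ₀ := (norm_fst_le (L (pt y x t) - L β)).trans_lt k1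
  have k3 : (al (pt y x t)).im = (al (pt y x t) - al β).im + (al β).im := by
    rw [Complex.sub_im]; ring
  rw [k3]
  refine (abs_add_le _ _).trans ?_
  linarith [Complex.abs_im_le_norm (al (pt y x t) - al β)]

/-- R2-free mid-level points near all ancestors -/
theorem good_pts (crv : Crv Λ b F q) {X om e R C₀ : ℝ} (hX : 2 ≤ X) (hom0 : 0 < om)
    (hom : om ≤ 1 / 2) (he : 0 < e) (hC : 0 ≤ C₀) :
    ∃ Λ₀ : ℝ, 1 ≤ Λ₀ ∧ ∃ ρ₀ > 0, ∀ {al p th : ℂ × ℂ → ℂ}, SQ Λ b F q 1 al p th →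
    ∀ {y x r D S : ℝ}, 0 < r → r ≤ D → D ≤ S → |y| + (X + 1) * S ≤ 1 → |x| + (X + 1) * S ≤ 1 →
    (∀ h, D ≤ h → h ≤ S → ∃ β ∈ Pc X om y x h, |(th β).im| ≤ b - e ∧ e ≤ ‖deriv F (th β)‖ ∧
      |(al β).im| ≤ R) →
    (∀ h, r ≤ h → h ≤ D → C₀ * (r / h) ^ 2 < 1 → ∀ z ∈ Pc X om y x h, ∀ z' ∈ Pc X om y x h,
      ‖((al z, p z) : ℂ × ℂ) - (al z', p z')‖ ≤ C₀ * (r / h) ^ 2) →
    ∀ t, r ≤ t → t ≤ S → ∃ g h', t ≤ h' ∧ h' ≤ Λ₀ * t ∧ h' ≤ S ∧ g ∈ Pc X om y x h' ∧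
      |(th g).im| ≤ b - e / 2 ∧ e / 2 ≤ ‖deriv F (th g)‖ ∧ |(al g).im| ≤ R + ρ₀ := by
  obtain ⟨Λ₀, hΛ1, ρ₀, hρ, hz⟩ := zone_part crv (R := R) hX hom0 hom he hC
  refine ⟨Λ₀, hΛ1, ρ₀, hρ, ?_⟩
  intro al p th W y x r D S hr hrD hDS hy hx BG HH t hrt htS
  have zonept := hz W hr hrD hDS hy hx (BG D le_rfl hDS) HH
  have ht0 : 0 < t := hr.trans_le hrt
  rcases le_total D t with h1 | h1
  · obtain ⟨β, hβ, b1, b2, b3⟩ := BG t h1 htS
    exact ⟨β, t, le_rfl, by nlinarith, htS, hβ, by linarith, by linarith, by linarith⟩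
  · rcases le_total (Λ₀ * r) t with h2 | h2
    · obtain ⟨b1, b2, b3⟩ := zonept t h2 h1
      exact ⟨pt y x t, t, le_rfl, by nlinarith, htS, pt_self hX hom ht0, b1, b2, b3⟩
    · rcases le_total (Λ₀ * r) D with h3 | h3
      · obtain ⟨b1, b2, b3⟩ := zonept _ le_rfl h3
        exact ⟨pt y x (Λ₀ * r), Λ₀ * r, h2, by gcongr, h3.trans hDS,
          pt_self hX hom (by positivity), b1, b2, b3⟩
      · obtain ⟨β, hβ, b1, b2, b3⟩ := BG D le_rfl hDS
        exact ⟨β, D, h1, h3.trans (by gcongr), hDS, hβ, by linarith, by linarith, by linarith⟩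

/-- logarithmic bound from bounds on octaves -/
theorem log_chain {f : ℝ → ℂ} {r S C : ℝ} (hr : 0 < r) (hC : 0 ≤ C)
    (hf : ∀ t t', r ≤ t → t ≤ t' → t' ≤ 2 * t → t' ≤ S → ‖f t' - f t‖ ≤ C) {h : ℝ}
    (hrh : r ≤ h) (hhS : h ≤ S) : ‖f h - f r‖ ≤ 2 * C * (1 + Real.log (h / r)) := by
  have hh0 : 0 < h := hr.trans_le hrh
  have hlog : ∀ n : ℕ, ∀ h, r ≤ h → h ≤ S → h ≤ 2 ^ n * r → ‖f h - f r‖ ≤ C * n := by
    intro n
    induction n with
    | zero =>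
      intro h h1 h2 h3
      rw [pow_zero, one_mul] at h3
      have : h = r := le_antisymm h3 h1
      rw [this, sub_self, norm_zero]; simp
    | succ n ih =>
      intro h h1 h2 h3
      rcases le_total h (2 ^ n * r) with h4 | h4
      · have h5 := ih h h1 h2 h4
        push_cast
        linarith
      · set t : ℝ := max (h / 2) r with ht
        have t1 : r ≤ t := le_max_right _ _
        have t2 : t ≤ h := max_le (by linarith) h1
        have t3 : h ≤ 2 * t := by linarith [le_max_left (h / 2) r]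
        have t4 : t ≤ 2 ^ n * r := by
          refine max_le ?_ ?_
          · rw [pow_succ] at h3; linarith
          · have : (1 : ℝ) ≤ 2 ^ n := one_le_pow₀ one_le_two
            nlinarith
        have k2 := hf t h t1 t2 t3 h2
        have k3 := ih t t1 (t2.trans h2) t4
        have k4 : f h - f r = (f h - f t) + (f t - f r) := by ring
        rw [k4]
        refine (norm_add_le _ _).trans ?_
        push_cast
        linarith
  obtain ⟨n, a1, a2, -⟩ := exists_top hr hrh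
  have h1 := hlog n h hrh hhS a1
  have h2 : (n : ℝ) * Real.log 2 ≤ Real.log 2 + Real.log (h / r) := by
    rw [← Real.log_pow, ← Real.log_mul (by norm_num) (by positivity)]
    refine Real.log_le_log (by positivity) ?_
    rw [mul_div_assoc', le_div_iff₀ hr]
    exact a2.le
  have h3 : 0 ≤ Real.log (h / r) := Real.log_nonneg (by rw [le_div_iff₀ hr]; linarith)
  have h4 : (0.5 : ℝ) ≤ Real.log 2 := by linarith [Real.log_two_gt_d9]
  have h5 : (n : ℝ) ≤ 2 * (1 + Real.log (h / r)) := by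
    by_contra hcon
    push Not at hcon
    have h6 : Real.log 2 < 1 := by linarith [Real.log_two_lt_d9]
    nlinarith
  calc ‖f h - f r‖ ≤ C * n := h1
    _ ≤ C * (2 * (1 + Real.log (h / r))) := by gcongr
    _ = _ := by ring

/-- transport from the good points to the axis -/
theorem axis_pts (crv : Crv Λ b F q) {X om e R C₀ : ℝ} (hX : 2 ≤ X) (hom0 : 0 < om)
    (hom : om ≤ 1 / 2) (he : 0 < e) (hC : 0 ≤ C₀) :
    ∃ Λ₀ : ℝ, 1 ≤ Λ₀ ∧ ∃ c₁ > 0, ∃ C₁ > 0, ∀ {al p th : ℂ × ℂ → ℂ}, SQ Λ b F q 1 al p th →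
    ∀ {y x r D S : ℝ}, 0 < r → r ≤ D → D ≤ S → |y| + (X + 1) * S ≤ 1 → |x| + (X + 1) * S ≤ 1 →
    (∀ h, D ≤ h → h ≤ S → ∃ β ∈ Pc X om y x h, |(th β).im| ≤ b - e ∧ e ≤ ‖deriv F (th β)‖ ∧
      |(al β).im| ≤ R) →
    (∀ h, r ≤ h → h ≤ D → C₀ * (r / h) ^ 2 < 1 → ∀ z ∈ Pc X om y x h, ∀ z' ∈ Pc X om y x h,
      ‖((al z, p z) : ℂ × ℂ) - (al z', p z')‖ ≤ C₀ * (r / h) ^ 2) →
    ∀ t, r ≤ t → t ≤ S → ∃ g : ℂ × ℂ,
      (om * t ≤ -g.1.im ∧ om * t ≤ g.2.im ∧ ‖g - apx y x‖ ≤ 2 * (X * Λ₀) * t ∧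
        |(th g).im| ≤ b - e / 2 ∧ e / 2 ≤ ‖deriv F (th g)‖) ∧
      ∀ t', t ≤ t' → t' ≤ 2 * t → t' ≤ S → |(th (pt y x t')).im| ≤ b - c₁ ∧
        |(al (pt y x t')).im| ≤ C₁ ∧ ‖p (pt y x t')‖ ≤ C₁ ∧ ‖al (pt y x t') - al g‖ ≤ C₁ := by
  obtain ⟨Λ₀, hΛ1, ρ₀, hρ, hz⟩ := good_pts crv (R := R) hX hom0 hom he hC
  have hX0 : 0 < X := by linarith
  obtain ⟨c₁, hc₁, C₁, hC₁, htr⟩ := tr crv (e := e / 2) (R := R + ρ₀) (half_pos he)
    (X' := 2 * (X * Λ₀)) (om := om) (by positivity) hom0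
  refine ⟨Λ₀, hΛ1, c₁, hc₁, C₁, hC₁, ?_⟩
  intro al p th W y x r D S hr hrD hDS hy hx BG HH t hrt htS
  have hS0 : 0 < S := (hr.trans_le hrD).trans_le hDS
  have ht0 : 0 < t := hr.trans_le hrt
  have hreg := reg hX0 hom0 hom hS0 hy hx
  obtain ⟨g, h', g1, g2, g3, g4, g5, g6, g7⟩ := hz W hr hrD hDS hy hx BG HH t hrt htS
  have hh' : 0 < h' := ht0.trans_le g1
  have hgP := g4
  obtain ⟨p1, p2, p3, p4, p5, p6⟩ := g4
  have hXh : X * h' ≤ X * Λ₀ * t := by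
    rw [mul_assoc]; exact mul_le_mul_of_nonneg_left g2 hX0.le
  have hoh : om * t ≤ om * h' := by gcongr
  have h2t : 2 * t ≤ X * Λ₀ * t := by
    have : 2 ≤ X * Λ₀ := by nlinarith
    exact mul_le_mul_of_nonneg_right this ht0.le
  have hot : 0 < om * t := by positivity
  refine ⟨g, ⟨by linarith, by linarith, ?_, g5, g6⟩, ?_⟩
  · have h1 : ‖g - apx y x‖ ≤ 2 * (X * Λ₀ * t) := by
      refine norm_le_two ?_ ?_ ?_ ?_
      · have : (g - apx y x).1.re = g.1.re - y := by simp [apx]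
        rw [this]; exact p1.trans hXh
      · have : (g - apx y x).1.im = g.1.im := by simp [apx]
        rw [this, abs_le]; constructor <;> linarith
      · have : (g - apx y x).2.re = g.2.re - x := by simp [apx]
        rw [this]; exact p2.trans hXh
      · have : (g - apx y x).2.im = g.2.im := by simp [apx]
        rw [this, abs_le]; constructor <;> linarith
    linarith
  · intro t' h1 h2 h3
    have ht' : 0 < t' := ht0.trans_le h1
    have hgK : g ∈ Kx (om * t) := hreg h' hh' g3 t ht0 g1 g hgP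
    have hpK : pt y x t' ∈ Kx (om * t) := hreg t' ht' h3 t ht0 h1 _ (pt_self hX hom ht')
    refine htr (fun_of_sq W) ht0 hgK hpK ?_ g5 g6 g7
    have h1 : ‖pt y x t' - g‖ ≤ 2 * (X * Λ₀ * t) := by
      refine norm_le_two ?_ ?_ ?_ ?_
      · have : (pt y x t' - g).1.re = -(g.1.re - y) := by simp
        rw [this, abs_neg]; exact p1.trans hXh
      · have : (pt y x t' - g).1.im = -t' - g.1.im := by simp
        rw [this, abs_le]; constructor <;> linarith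
      · have : (pt y x t' - g).2.re = -(g.2.re - x) := by simp
        rw [this, abs_neg]; exact p2.trans hXh
      · have : (pt y x t' - g).2.im = t' - g.2.im := by simp
        rw [this, abs_le]; constructor <;> linarith
    linarith

/-- **row ST-3: ancestors of the pick** -/
theorem anc_st (crv : Crv Λ b F q) {X om e R C₀ : ℝ} (hX : 2 ≤ X) (hom0 : 0 < om)
    (hom : om ≤ 1 / 2) (he : 0 < e) (hC : 0 ≤ C₀) :
    ∃ X₁ ≥ 1, ∃ e₁ > 0, ∃ V₁ ≥ 0, ∀ {al p th : ℂ × ℂ → ℂ}, SQ Λ b F q 1 al p th →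
    ∀ {y x r D S : ℝ}, 0 < r → r ≤ D → D ≤ S → |y| + (X + 1) * S ≤ 1 → |x| + (X + 1) * S ≤ 1 →
    (∀ h, D ≤ h → h ≤ S → ∃ β ∈ Pc X om y x h, |(th β).im| ≤ b - e ∧ e ≤ ‖deriv F (th β)‖ ∧
      |(al β).im| ≤ R) →
    (∀ h, r ≤ h → h ≤ D → C₀ * (r / h) ^ 2 < 1 → ∀ z ∈ Pc X om y x h, ∀ z' ∈ Pc X om y x h,
      ‖((al z, p z) : ℂ × ℂ) - (al z', p z')‖ ≤ C₀ * (r / h) ^ 2) →
    ∀ h, r ≤ h → h ≤ S →
      Md b F (fun z => th (z + apx y x)) X₁ om e₁ h ∧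
      |Vq F (fun z => al (z + apx y x)) (fun z => th (z + apx y x)) h| ≤ V₁ ∧
      |(th (pt y x h)).im| ≤ b - e₁ ∧ |(al (pt y x h)).im| ≤ V₁ ∧ ‖p (pt y x h)‖ ≤ V₁ ∧
      ‖al (pt y x h) - al (pt y x r)‖ ≤ V₁ * (1 + Real.log (h / r)) := by
  obtain ⟨Λ₀, hΛ1, c₁, hc₁, C₁, hC₁, hax⟩ := axis_pts crv (R := R) hX hom0 hom he hC
  obtain ⟨V, hV0, hV⟩ := gg_bd crv (c₁ := c₁) (C₁ := C₁) hc₁
  have hX0 : 0 < X := by linarith
  refine ⟨2 * (X * Λ₀), by nlinarith, min (e / 2) c₁, lt_min (half_pos he) hc₁, V + 4 * C₁,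
    by positivity, ?_⟩
  intro al p th W y x r D S hr hrD hDS hy hx BG HH h hrh hhS
  have key := hax W hr hrD hDS hy hx BG HH
  have e1a : min (e / 2) c₁ ≤ e / 2 := min_le_left _ _
  have e1b : min (e / 2) c₁ ≤ c₁ := min_le_right _ _
  have hh0 : 0 < h := hr.trans_le hrh
  obtain ⟨g, ⟨g1, g2, g3, g4, g5⟩, hg⟩ := key h hrh hhS
  obtain ⟨k1, k2, k3, k4⟩ := hg h le_rfl (by linarith) hhS
  refine ⟨⟨g - apx y x, ?_, ?_, g3, ?_, ?_⟩, ?_, by linarith, by linarith, by linarith, ?_⟩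
  · have : (g - apx y x).1.im = g.1.im := by simp [apx]
    rw [this]; exact g1
  · have : (g - apx y x).2.im = g.2.im := by simp [apx]
    rw [this]; exact g2
  · show |(th (g - apx y x + apx y x)).im| ≤ b - min (e / 2) c₁
    rw [sub_add_cancel]; linarith
  · show min (e / 2) c₁ ≤ ‖deriv F (th (g - apx y x + apx y x))‖
    rw [sub_add_cancel]; linarith
  · have h1 := hV (al := al) (th := th) (z := pt y x h) k1 k2
    have h2 : Vq F (fun z => al (z + apx y x)) (fun z => th (z + apx y x)) h =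
        (gg F al th (pt y x h)).re := by
      unfold Vq gg
      simp only [pt_eq]
    rw [h2]
    linarith
  · have h1 := log_chain (f := fun t => al (pt y x t)) (r := r) (S := S) (C := 2 * C₁) hr
      (by positivity) (fun t t' t1 t2 t3 t4 => by
        obtain ⟨g, -, hg⟩ := key t t1 (t2.trans t4)
        have k1 := (hg t le_rfl (by linarith) (t2.trans t4)).2.2.2
        have k2 := (hg t' t2 t3 t4).2.2.2
        have k4 : al (pt y x t') - al (pt y x t) = (al (pt y x t') - al g) -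
            (al (pt y x t) - al g) := by ring
        show ‖al (pt y x t') - al (pt y x t)‖ ≤ 2 * C₁
        rw [k4]
        have k5 := norm_sub_le (al (pt y x t') - al g) (al (pt y x t) - al g)
        linarith) hrh hhS
    have h3 : 0 ≤ Real.log (h / r) := Real.log_nonneg (by rw [le_div_iff₀ hr]; linarith)
    calc ‖al (pt y x h) - al (pt y x r)‖ ≤ 2 * (2 * C₁) * (1 + Real.log (h / r)) := h1
      _ = (4 * C₁) * (1 + Real.log (h / r)) := by ring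
      _ ≤ (V + 4 * C₁) * (1 + Real.log (h / r)) :=
        mul_le_mul_of_nonneg_right (by linarith) (by linarith)

end Vale.Agent.P097.H561.Anc
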