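import Vale.Agent.P097.H561.Anc
import Vale.Agent.P097.H509.St.Defs

/-!
# P097 / case [c] / row ST-3 in the literal form of H509/St/Defs
-/

set_option linter.all false

open Complex Metric Filter Topology Set
open scoped ComplexConjugate

namespace Vale.Agent.P097.H561.Anc

open Vale.Agent.P097.TC Vale.Agent.P097.H226.W Vale.Agent.P097.H845.St Vale.Agent.P097.H509.St
open Vale.Agent.P097.A5 (Crv Gro)

variable {Λ b : ℝ} {F q : ℂ → ℂ}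

theorem gro_of_grw (h : Grw b F q) : Gro b F q := by
  intro a ha
  obtain ⟨C, hC⟩ := h a ha
  refine ⟨max C 1, by positivity, fun x hx => ?_⟩
  have hx' : |x.im| < b := hx
  have h1 : 0 ≤ (b - |x.im|) ^ (-a) := Real.rpow_nonneg (by linarith) _
  have h2 : C * (b - |x.im|) ^ (-a) ≤ max C 1 * (b - |x.im|) ^ (-a) :=
    mul_le_mul_of_nonneg_right (le_max_left _ _) h1
  have h3 := Real.exp_le_exp.2 h2
  have h4 := Real.exp_le_exp.2 h3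
  obtain ⟨k1, k2, k3, k4⟩ := hC x hx
  exact ⟨k1.trans h3, k2.trans h3, k3.trans h4, k4.trans h4⟩

theorem crv_of (hc : Cv Λ b F q) (hg : Grw b F q) (hp : Per b F q) : Crv Λ b F q :=
  ⟨hc, hp.Fp, hp.qp, gro_of_grw hg⟩

theorem tr_eq (y x : ℝ) : H509.St.tr y x = fun z => z + apx y x := by
  funext z
  unfold H509.St.tr apx
  ext1 <;> simp [add_comm]

theorem md_mono {th : ℂ × ℂ → ℂ} {X X' om e h : ℝ} (hh : 0 ≤ h) (hX : X ≤ X')
    (H : Md b F th X om e h) : Md b F th X' om e h := by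
  obtain ⟨β, h1, h2, h3, h4, h5⟩ := H
  exact ⟨β, h1, h2, h3.trans (mul_le_mul_of_nonneg_right hX hh), h4, h5⟩

/-- **ancestors of the pick, literal form of `Pick.mv`** -/
theorem anc_mv (crv : Crv Λ b F q) {Xp op e R C₀ : ℝ} (hX : 2 ≤ Xp) (hop0 : 0 < op)
    (hop : op ≤ 1 / 2) (he : 0 < e) (hC : 0 ≤ C₀) :
    ∃ X' e' V' : ℝ, Xp ≤ X' ∧ 0 < e' ∧ 0 ≤ V' ∧ ∀ {al p th : ℂ × ℂ → ℂ}, SQ Λ b F q 1 al p th →
    ∀ {y x r D : ℝ}, |y| ≤ 1 / 4 → |x| ≤ 1 / 4 → 0 < r → r ≤ D → (X' + 5) * D ≤ 1 / 2 →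
    (∀ h, D ≤ h → (X' + 5) * h ≤ 1 / 2 → ∃ β ∈ Pc Xp op y x h, |(th β).im| ≤ b - e ∧
      e ≤ ‖deriv F (th β)‖ ∧ |(al β).im| ≤ R) →
    (∀ h, r ≤ h → h ≤ D → C₀ * (r / h) ^ 2 < 1 → ∀ z ∈ Pc Xp op y x h, ∀ z' ∈ Pc Xp op y x h,
      ‖al z - al z'‖ ≤ C₀ * (r / h) ^ 2 ∧ ‖p z - p z'‖ ≤ C₀ * (r / h) ^ 2) →
    ∀ h, r ≤ h → (X' + 5) * h ≤ 1 / 2 → MV b F al th X' op e' V' y x h := by
  obtain ⟨X₁, hX₁, e₁, he₁, V₁, hV₁, hA⟩ := anc_st crv (R := R) hX hop0 hop he hC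
  refine ⟨max X₁ Xp, e₁, V₁, le_max_right _ _, he₁, hV₁, ?_⟩
  intro al p th W y x r D hy hx hr hrD hD BG HH h hrh hh
  set X' : ℝ := max X₁ Xp with hX'
  have hX'p : Xp ≤ X' := le_max_right _ _
  have hX'1 : X₁ ≤ X' := le_max_left _ _
  have h5 : 0 < X' + 5 := by linarith
  set S : ℝ := 1 / (2 * (X' + 5)) with hS
  have hS0 : 0 < S := by positivity
  have hS1 : (X' + 5) * S = 1 / 2 := by rw [hS]; field_simp
  have hle : ∀ t, (X' + 5) * t ≤ 1 / 2 ↔ t ≤ S := by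
    intro t
    rw [← hS1]
    exact mul_le_mul_iff_right₀ h5
  have hXS : (Xp + 1) * S ≤ 1 / 2 := by
    rw [← hS1]; exact mul_le_mul_of_nonneg_right (by linarith) hS0.le
  have h1 := hA W hr hrD ((hle D).1 hD) (by linarith) (by linarith)
    (fun t ht1 ht2 => BG t ht1 ((hle t).2 ht2))
    (fun t ht1 ht2 ht3 z hz z' hz' => by
      obtain ⟨k1, k2⟩ := HH t ht1 ht2 ht3 z hz z' hz'
      rw [Prod.mk_sub_mk, Prod.norm_def]
      exact max_le k1 k2) h hrh ((hle h).1 hh)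
  have hh0 : 0 < h := hr.trans_le hrh
  refine ⟨?_, ?_⟩
  · have h2 := md_mono hh0.le hX'1 h1.1
    rw [tr_eq]
    exact h2
  · have h2 := h1.2.1
    rw [tr_eq]
    exact h2

end Vale.Agent.P097.H561.Anc
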