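import Vale.Agent.P097.H394.Zone

/-!
# P097 / case [c] / row A5.PICK, exit time on a vertical (continuous form of the zone, for the base
choice (8') of helper418)

`L t = (al_k, p_k)` and `x t = theta_j` at the window `(y', u, t)`, `0 < t ≤ t₀`.  If the position
leaves the compact neighbourhood of `K` somewhere on the vertical then the line moves by at least
`ρ₀`, and up to the first time `t₁` where this happens the position is near `K`.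
-/

set_option linter.all false

open Complex Metric Filter Topology Set
open scoped ComplexConjugate

namespace Vale.Agent.P097.H561.Exit

open Vale.Agent.P097.TC

variable {Λ b : ℝ} {F q : ℂ → ℂ}

/-- last time (coming from `t₀` downwards) at which a continuous function on `(0,t₀]` reaches the
level `c` -/
theorem last_level {g : ℝ → ℝ} {t₀ c : ℝ} (hg : ContinuousOn g (Ioc 0 t₀)) (h0 : g t₀ < c)
    (ht₀ : 0 < t₀) (hex : ∃ t ∈ Ioc 0 t₀, c ≤ g t) :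
    ∃ t₁ ∈ Ioo 0 t₀, g t₁ = c ∧ ∀ t ∈ Ioc t₁ t₀, g t < c := by
  obtain ⟨s, hs, hsc⟩ := hex
  set A : Set ℝ := {t | t ∈ Icc s t₀ ∧ c ≤ g t} with hA
  have hsub : Icc s t₀ ⊆ Ioc 0 t₀ := fun t ht => ⟨hs.1.trans_le ht.1, ht.2⟩
  have hAc : IsCompact A := by
    have h1 : IsClosed (Icc s t₀ ∩ g ⁻¹' Ici c) :=
      (hg.mono hsub).preimage_isClosed_of_isClosed isClosed_Icc isClosed_Ici
    have h2 : A = Icc s t₀ ∩ g ⁻¹' Ici c := by ext t; simp [hA]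
    rw [h2]
    exact isCompact_Icc.of_isClosed_subset h1 inter_subset_left
  have hne : A.Nonempty := ⟨s, ⟨le_rfl, hs.2⟩, hsc⟩
  obtain ⟨t₁, ht₁⟩ := hAc.exists_isGreatest hne
  have h1 : t₁ ∈ Icc s t₀ := ht₁.1.1
  have hc1 : c ≤ g t₁ := ht₁.1.2
  have hlt : t₁ < t₀ := by
    rcases h1.2.lt_or_eq with h | h
    · exact h
    · rw [h] at hc1; exact absurd hc1 (not_le.2 h0)
  have hafter : ∀ t ∈ Ioc t₁ t₀, g t < c := by
    intro t ht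
    by_contra hcon
    have : t ∈ A := ⟨⟨h1.1.trans ht.1.le, ht.2⟩, not_lt.1 hcon⟩
    exact absurd (ht₁.2 this) (not_le.2 ht.1)
  refine ⟨t₁, ⟨hs.1.trans_le h1.1, hlt⟩, le_antisymm ?_ hc1, hafter⟩
  -- continuity from the right
  have h01 : t₁ ∈ Ioc 0 t₀ := hsub h1
  have hcw : ContinuousWithinAt g (Ioc t₁ t₀) t₁ :=
    (hg t₁ h01).mono fun t ht => ⟨h01.1.trans ht.1, ht.2⟩
  have hneb : (𝓝[Ioc t₁ t₀] t₁).NeBot := by
    have : 𝓝[Ioc t₁ t₀] t₁ = 𝓝[>] t₁ := nhdsWithin_Ioc_eq_nhdsGT hlt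
    rw [this]; infer_instance
  exact le_of_tendsto hcw (eventually_nhdsWithin_of_forall fun t ht => (hafter t ht).le)

/-- **EXIT TIME** -/
theorem exit (hC : Cv Λ b F q) {K : Set ℂ} (hK : IsCompact K) (hKb : K ⊆ Sb b) (R : ℝ)
    {η : ℝ} (hη : 0 < η) :
    ∃ ρ₀ > 0, ∀ {L : ℝ → ℂ × ℂ} {x : ℝ → ℂ} {t₀ : ℝ}, 0 < t₀ → ContinuousOn L (Ioc 0 t₀) →
      ContinuousOn x (Ioc 0 t₀) → x t₀ ∈ K → |(L t₀).1.im| ≤ R →
      (∀ t ∈ Ioc 0 t₀, x t ∈ Sb b ∧ Mi F q (L t).1 (L t).2 (x t) = 0) →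
      (∃ t ∈ Ioc 0 t₀, η ≤ ‖x t - x t₀‖) →
      ∀ ρ, 0 < ρ → ρ ≤ ρ₀ →
      ∃ t₁ ∈ Ioo 0 t₀, ‖L t₁ - L t₀‖ = ρ ∧ ∀ t ∈ Icc t₁ t₀, ‖L t - L t₀‖ ≤ ρ ∧
        ‖x t - x t₀‖ < η ∧ x t ∈ cthickening η K ∧ |(L t).1.im| ≤ R + ρ := by
  obtain ⟨ρ₀, hρ₀, hz⟩ := H394.zone hC hK hKb R hη
  refine ⟨ρ₀ / 2, by positivity, ?_⟩
  intro L x t₀ ht₀ hL hx hxK hR hM hex ρ hρ hρle
  have hlt : ρ < ρ₀ := by linarith
  have ht₀m : t₀ ∈ Ioc 0 t₀ := ⟨ht₀, le_rfl⟩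
  -- zone on `[s, t₀]`
  have hzone : ∀ s, 0 < s → (∀ t ∈ Icc s t₀, ‖L t - L t₀‖ ≤ ρ) → ∀ t ∈ Icc s t₀,
      ‖x t - x t₀‖ < η := by
    intro s hs hle t ht
    have hsub : Icc s t₀ ⊆ Ioc 0 t₀ := fun t ht => ⟨hs.trans_le ht.1, ht.2⟩
    have hst : s ≤ t₀ := ht.1.trans ht.2
    refine hz (T := Icc s t₀) (a := fun t => (L t).1) (p := fun t => (L t).2) (x := x) (z₀ := t₀)
      isPreconnected_Icc ⟨hst, le_rfl⟩ (hx.mono hsub) hxK hR ?_ t ht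
    intro t' ht'
    have h1 := hle t' ht'
    have h2 : ‖(L t').1 - (L t₀).1‖ ≤ ‖L t' - L t₀‖ := by
      rw [← Prod.fst_sub]; exact norm_fst_le _
    have h3 : ‖(L t').2 - (L t₀).2‖ ≤ ‖L t' - L t₀‖ := by
      rw [← Prod.snd_sub]; exact norm_snd_le _
    exact ⟨by linarith, by linarith, (hM t' (hsub ht')).1, (hM t' (hsub ht')).2⟩
  -- the line leaves
  have hleave : ∃ t ∈ Ioc 0 t₀, ρ ≤ ‖L t - L t₀‖ := by
    by_contra hcon
    push Not at hcon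
    obtain ⟨s, hs, hxs⟩ := hex
    have := hzone s hs.1 (fun t ht => (hcon t ⟨hs.1.trans_le ht.1, ht.2⟩).le) s ⟨le_rfl, hs.2⟩
    linarith
  have hgc : ContinuousOn (fun t => ‖L t - L t₀‖) (Ioc 0 t₀) := (hL.sub continuousOn_const).norm
  obtain ⟨t₁, ht₁, heq, hafter⟩ := last_level hgc (by simpa using hρ) ht₀ hleave
  have hle : ∀ t ∈ Icc t₁ t₀, ‖L t - L t₀‖ ≤ ρ := by
    intro t ht
    rcases ht.1.eq_or_lt with h | h
    · rw [← h]; exact heq.le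
    · exact (hafter t ⟨h, ht.2⟩).le
  refine ⟨t₁, ht₁, heq, fun t ht => ⟨hle t ht, hzone t₁ ht₁.1 hle t ht, ?_, ?_⟩⟩
  · refine mem_cthickening_of_dist_le (x t) (x t₀) η K hxK ?_
    rw [dist_eq_norm]
    exact (hzone t₁ ht₁.1 hle t ht).le
  · have h2 : ‖(L t).1 - (L t₀).1‖ ≤ ρ := by
      refine le_trans ?_ (hle t ht)
      rw [← Prod.fst_sub]; exact norm_fst_le _
    have h3 : |((L t).1 - (L t₀).1).im| ≤ ρ := (Complex.abs_im_le_norm _).trans h2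
    have h4 : (L t).1.im = ((L t).1 - (L t₀).1).im + (L t₀).1.im := by
      rw [Complex.sub_im]; ring
    rw [h4]
    exact (abs_add_le _ _).trans (by linarith)

/-- the position goes to the wall at the bottom of the vertical, so it leaves -/
theorem exists_far {K : Set ℂ} {b η : ℝ} {x : ℝ → ℂ} {t₀ : ℝ} (ht₀ : 0 < t₀)
    (hxK : |(x t₀).im| + η < b)
    (hwall : Tendsto (fun t => |(x t).im|) (𝓝[>] 0) (𝓝 b)) :
    ∃ t ∈ Ioc 0 t₀, η ≤ ‖x t - x t₀‖ := by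
  have h1 : ∀ᶠ t in 𝓝[>] (0 : ℝ), |(x t₀).im| + η < |(x t).im| := hwall.eventually_const_lt hxK
  have h2 : ∀ᶠ t in 𝓝[>] (0 : ℝ), t ∈ Ioc 0 t₀ := Ioc_mem_nhdsGT ht₀
  obtain ⟨t, h3, h4⟩ := (h1.and h2).exists
  refine ⟨t, h4, ?_⟩
  have h5 : |(x t).im| - |(x t₀).im| ≤ |(x t - x t₀).im| := by
    rw [Complex.sub_im]; exact abs_sub_abs_le_abs_sub _ _
  linarith [Complex.abs_im_le_norm (x t - x t₀)]

/-- same, if the limit in the closed annulus is another interior point or the wall: it is enough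
that the cluster values stay away from `x t₀` -/
theorem exists_far' {η : ℝ} {x : ℝ → ℂ} {t₀ : ℝ} (ht₀ : 0 < t₀)
    (hfr : ∃ᶠ t in 𝓝[>] (0 : ℝ), η ≤ ‖x t - x t₀‖) :
    ∃ t ∈ Ioc 0 t₀, η ≤ ‖x t - x t₀‖ := by
  have h2 : ∀ᶠ t in 𝓝[>] (0 : ℝ), t ∈ Ioc 0 t₀ := Ioc_mem_nhdsGT ht₀
  obtain ⟨t, h3, h4⟩ := (hfr.and_eventually h2).exists
  exact ⟨t, h4, h3⟩

/-- a compact subset of the strip has a uniform distance to the wall -/
theorem exists_gap {b : ℝ} {K : Set ℂ} (hK : IsCompact K) (hKb : K ⊆ Sb b) :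
    ∃ η > 0, (∀ x ∈ K, |x.im| + η < b) ∧ cthickening η K ⊆ Sb b := by
  rcases K.eq_empty_or_nonempty with h | h
  · subst h
    exact ⟨1, one_pos, by simp, by simp⟩
  obtain ⟨x₀, hx₀, hmax⟩ := hK.exists_isMaxOn h (Complex.continuous_im.abs).continuousOn
  have h1 : |x₀.im| < b := hKb hx₀
  have h2 : ∀ x ∈ K, |x.im| ≤ |x₀.im| := fun x hx => hmax hx
  refine ⟨(b - |x₀.im|) / 2, by linarith, fun x hx => by linarith [h2 x hx], ?_⟩
  intro z hz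
  rw [hK.cthickening_eq_biUnion_closedBall (by linarith)] at hz
  simp only [mem_iUnion, mem_closedBall, exists_prop] at hz
  obtain ⟨x, hx, hzx⟩ := hz
  have h3 : |z.im| ≤ |x.im| + dist z x := by
    have : z.im = x.im + (z - x).im := by rw [Complex.sub_im]; ring
    rw [this, dist_eq_norm]
    exact (abs_add_le _ _).trans (by linarith [Complex.abs_im_le_norm (z - x)])
  show |z.im| < b
  linarith [h2 x hx]

/-- **EXIT TIME, wall form**: there are `η, ρ₀ > 0` (depending on `K`, `R` only) such that on every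
vertical that starts over `K` and ends on the wall the line moves by `ρ₀`, and before it does the
position is `η`-near `K`, which is inside the strip -/
theorem exit_wall (hC : Cv Λ b F q) {K : Set ℂ} (hK : IsCompact K) (hKb : K ⊆ Sb b) (R : ℝ) :
    ∃ η > 0, cthickening η K ⊆ Sb b ∧ ∃ ρ₀ > 0, ∀ {L : ℝ → ℂ × ℂ} {x : ℝ → ℂ} {t₀ : ℝ}, 0 < t₀ →
      ContinuousOn L (Ioc 0 t₀) → ContinuousOn x (Ioc 0 t₀) → x t₀ ∈ K → |(L t₀).1.im| ≤ R →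
      (∀ t ∈ Ioc 0 t₀, x t ∈ Sb b ∧ Mi F q (L t).1 (L t).2 (x t) = 0) →
      Tendsto (fun t => |(x t).im|) (𝓝[>] 0) (𝓝 b) → ∀ ρ, 0 < ρ → ρ ≤ ρ₀ →
      ∃ t₁ ∈ Ioo 0 t₀, ‖L t₁ - L t₀‖ = ρ ∧ ∀ t ∈ Icc t₁ t₀, ‖L t - L t₀‖ ≤ ρ ∧
        ‖x t - x t₀‖ < η ∧ x t ∈ cthickening η K ∧ |(L t).1.im| ≤ R + ρ := by
  obtain ⟨η, hη, h1, h2⟩ := exists_gap hK hKb
  obtain ⟨ρ₀, hρ₀, h3⟩ := exit hC hK hKb R hη
  refine ⟨η, hη, h2, ρ₀, hρ₀, ?_⟩
  intro L x t₀ ht₀ hL hx hxK hR hM hw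
  exact h3 ht₀ hL hx hxK hR hM (exists_far (K := K) ht₀ (h1 _ hxK) hw)

end Vale.Agent.P097.H561.Exit
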