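import Vale.Agent.P097.H420.JCount
import Vale.Agent.P097.H226.Harn
import Vale.Agent.P097.H264.Hb

/-!
# P097: quotient lemma

`G`, `P` holomorphic on a ball, `‖G‖ ≤ M`, `‖P * G‖ ≤ N`, `δ ≤ ‖G c‖` at the centre: then
`‖P‖ ≤ B (M, N, δ)` on the ball of one third of the radius (zeros of `G` allowed).
-/

set_option linter.all false

open Complex Metric Filter Topology Set
open scoped ComplexConjugate

namespace Vale.Agent.P097.H561.Quot

open Vale.Agent.P097.H420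

theorem kap_mono {r s θ : ℝ} (hr0 : 0 ≤ r) (hr : r < 1) (hs0 : 0 ≤ s) (hs : s ≤ θ) (hθ : θ < 1) :
    (r - θ) / (1 - r * θ) ≤ (r - s) / (1 - r * s) := by
  have h1 : 0 < 1 - r * θ := by nlinarith
  have h2 : 0 < 1 - r * s := by nlinarith
  rw [div_le_div_iff₀ h1 h2]
  nlinarith [mul_nonneg (sub_nonneg.2 hs) (show 0 ≤ 1 - r ^ 2 by nlinarith)]

/-- division by the zeros in the closed ball `θ` -/
theorem strip_zeros {θ : ℝ} (hθ0 : 0 < θ) (hθ1 : θ < 1) : ∀ (n : ℕ) {G : ℂ → ℂ} {M : ℝ},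
    DifferentiableOn ℂ G (ball 0 1) → (∀ z ∈ ball (0 : ℂ) 1, ‖G z‖ ≤ M) →
    M * θ ^ (n + 1) < ‖G 0‖ →
    ∃ G₁ : ℂ → ℂ, DifferentiableOn ℂ G₁ (ball 0 1) ∧ (∀ z ∈ ball (0 : ℂ) 1, ‖G₁ z‖ ≤ M) ∧
      (∀ z ∈ closedBall (0 : ℂ) θ, G₁ z ≠ 0) ∧ ‖G 0‖ ≤ ‖G₁ 0‖ ∧
      ∀ w ∈ ball (0 : ℂ) 1, θ < ‖w‖ → ((‖w‖ - θ) / (1 - ‖w‖ * θ)) ^ n * ‖G₁ w‖ ≤ ‖G w‖ := by
  intro n
  induction n with
  | zero =>
    intro G M hG hM h0
    have h0m : (0 : ℂ) ∈ ball (0 : ℂ) 1 := mem_ball_self one_pos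
    have hM0 : 0 ≤ M := (norm_nonneg _).trans (hM 0 h0m)
    refine ⟨G, hG, hM, fun a ha hGa => ?_, le_rfl, fun w hw _ => by simp⟩
    rw [mem_closedBall_zero_iff] at ha
    have haB : a ∈ ball (0 : ℂ) 1 := by rw [mem_ball_zero_iff]; linarith
    obtain ⟨g, hg, hgM, hgf⟩ := divide_zero hG hM haB hGa
    have h1 := hgf 0 h0m
    have h2 : ph a 0 = ‖a‖ := by simp [ph]
    rw [h2] at h1
    have h3 := hgM 0 h0m
    rw [h1] at h0
    have : ‖a‖ * ‖g 0‖ ≤ M * θ := by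
      calc ‖a‖ * ‖g 0‖ ≤ θ * M := mul_le_mul ha h3 (norm_nonneg _) hθ0.le
        _ = M * θ := by ring
    simp only [zero_add, pow_one] at h0
    linarith
  | succ n ih =>
    intro G M hG hM h0
    have h0m : (0 : ℂ) ∈ ball (0 : ℂ) 1 := mem_ball_self one_pos
    have hM0 : 0 ≤ M := (norm_nonneg _).trans (hM 0 h0m)
    by_cases hz : ∀ z ∈ closedBall (0 : ℂ) θ, G z ≠ 0
    · refine ⟨G, hG, hM, hz, le_rfl, fun w hw hθw => ?_⟩
      have hw1 : ‖w‖ < 1 := mem_ball_zero_iff.1 hw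
      have hd : 0 < 1 - ‖w‖ * θ := by nlinarith [norm_nonneg w]
      have hk0 : 0 ≤ (‖w‖ - θ) / (1 - ‖w‖ * θ) := div_nonneg (by linarith) hd.le
      have hk1 : (‖w‖ - θ) / (1 - ‖w‖ * θ) ≤ 1 := by
        rw [div_le_one hd]; nlinarith
      exact mul_le_of_le_one_left (norm_nonneg _) (pow_le_one₀ hk0 hk1)
    · push Not at hz
      obtain ⟨a, ha, hGa⟩ := hz
      rw [mem_closedBall_zero_iff] at ha
      have haB : a ∈ ball (0 : ℂ) 1 := by rw [mem_ball_zero_iff]; linarith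
      obtain ⟨g, hg, hgM, hgf⟩ := divide_zero hG hM haB hGa
      have h1 := hgf 0 h0m
      have h2 : ph a 0 = ‖a‖ := by simp [ph]
      rw [h2] at h1
      have h3 : ‖G 0‖ ≤ θ * ‖g 0‖ := by
        rw [h1]; exact mul_le_mul_of_nonneg_right ha (norm_nonneg _)
      have h4 : M * θ ^ (n + 1) < ‖g 0‖ := by
        have h5 : θ * (M * θ ^ (n + 1)) < θ * ‖g 0‖ := by
          calc θ * (M * θ ^ (n + 1)) = M * θ ^ (n + 1 + 1) := by ring
            _ < ‖G 0‖ := h0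
            _ ≤ _ := h3
        exact lt_of_mul_lt_mul_left h5 hθ0.le
      obtain ⟨G₁, k1, k2, k3, k4, k5⟩ := ih hg hgM h4
      refine ⟨G₁, k1, k2, k3, ?_, fun w hw hθw => ?_⟩
      · refine h3.trans (le_trans ?_ k4)
        exact mul_le_of_le_one_left (norm_nonneg _) hθ1.le
      · have hw1 : ‖w‖ < 1 := mem_ball_zero_iff.1 hw
        have hd : 0 < 1 - ‖w‖ * θ := by nlinarith [norm_nonneg w]
        have hk0 : 0 ≤ (‖w‖ - θ) / (1 - ‖w‖ * θ) := div_nonneg (by linarith) hd.le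
        have h6 : (‖w‖ - θ) / (1 - ‖w‖ * θ) ≤ ph a w :=
          (kap_mono (norm_nonneg w) hw1 (norm_nonneg a) ha hθ1).trans
            (ph_ge (mem_ball_zero_iff.1 haB) hw1 (ha.trans hθw.le))
        rw [hgf w hw, pow_succ']
        calc (‖w‖ - θ) / (1 - ‖w‖ * θ) * ((‖w‖ - θ) / (1 - ‖w‖ * θ)) ^ n * ‖G₁ w‖ =
            (‖w‖ - θ) / (1 - ‖w‖ * θ) * (((‖w‖ - θ) / (1 - ‖w‖ * θ)) ^ n * ‖G₁ w‖) := by ring
          _ ≤ ph a w * ‖g w‖ := mul_le_mul h6 (k5 w hw hθw) (by positivity) (ph_nonneg _ _)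

/-- lower bound of a zero free bounded function -/
theorem zero_free_lower {G : ℂ → ℂ} {M : ℝ} (hG : DifferentiableOn ℂ G (ball 0 1))
    (hM : ∀ z ∈ ball (0 : ℂ) 1, ‖G z‖ ≤ M) (h0 : ∀ z ∈ closedBall (0 : ℂ) (3 / 4), G z ≠ 0)
    {z : ℂ} (hz : ‖z‖ ≤ 1 / 3) : 2 * M * (‖G 0‖ / (2 * M)) ^ 9 ≤ ‖G z‖ := by
  have h0m : (0 : ℂ) ∈ ball (0 : ℂ) 1 := mem_ball_self one_pos
  have hG0 : 0 < ‖G 0‖ := norm_pos_iff.2 (h0 0 (by simp; norm_num))
  have hM0 : 0 < M := hG0.trans_le (hM 0 h0m)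
  -- ball around `z`
  have hsub : ball z (5 / 12) ⊆ ball (0 : ℂ) (3 / 4) := by
    intro y hy
    rw [mem_ball_zero_iff]
    rw [mem_ball, dist_eq_norm] at hy
    have : ‖y‖ ≤ ‖y - z‖ + ‖z‖ := by
      calc ‖y‖ = ‖(y - z) + z‖ := by rw [sub_add_cancel]
        _ ≤ _ := norm_add_le _ _
    linarith
  have hsub1 : ball z (5 / 12) ⊆ ball (0 : ℂ) 1 := hsub.trans (ball_subset_ball (by norm_num))
  obtain ⟨L, hL, hLe⟩ := H264.exists_hlog (U := ball z (5 / 12)) isOpen_ball (convex_ball _ _)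
    (hG.mono hsub1) (fun y hy => h0 y (ball_subset_closedBall (hsub hy)))
  have hre : ∀ y ∈ ball z (5 / 12), (L y).re = Real.log ‖G y‖ := by
    intro y hy
    rw [← hLe y hy, Complex.norm_exp, Real.log_exp]
  set H : ℂ → ℂ := fun ζ => (Real.log (2 * M) : ℂ) - L (z + (5 / 12 : ℂ) * ζ) with hH
  have hmap : MapsTo (fun ζ : ℂ => z + (5 / 12 : ℂ) * ζ) (ball 0 1) (ball z (5 / 12)) := by
    intro ζ hζ
    rw [mem_ball_zero_iff] at hζ
    rw [mem_ball, dist_eq_norm, add_sub_cancel_left, norm_mul]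
    have : ‖(5 / 12 : ℂ)‖ = 5 / 12 := by
      rw [show (5 / 12 : ℂ) = ((5 / 12 : ℝ) : ℂ) by push_cast; ring, Complex.norm_real]; norm_num
    rw [this]; linarith
  have hHd : DifferentiableOn ℂ H (ball 0 1) :=
    (differentiableOn_const _).sub (hL.comp (by fun_prop) hmap)
  have hHre : ∀ ζ ∈ ball (0 : ℂ) 1,
      (H ζ).re = Real.log (2 * M) - Real.log ‖G (z + (5 / 12 : ℂ) * ζ)‖ := by
    intro ζ hζ
    rw [hH]
    simp only [sub_re, ofReal_re]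
    rw [hre _ (hmap hζ)]
  have hpos : ∀ ζ ∈ ball (0 : ℂ) 1, 0 < (H ζ).re := by
    intro ζ hζ
    rw [hHre ζ hζ, sub_pos]
    refine Real.log_lt_log (norm_pos_iff.2 (h0 _ (ball_subset_closedBall (hsub (hmap hζ))))) ?_
    have := hM _ (hsub1 (hmap hζ))
    linarith
  -- the point corresponding to 0
  set c : ℂ := -((12 / 5 : ℂ) * z) with hc
  have hcn : ‖c‖ ≤ 4 / 5 := by
    rw [hc, norm_neg, norm_mul]
    have : ‖(12 / 5 : ℂ)‖ = 12 / 5 := by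
      rw [show (12 / 5 : ℂ) = ((12 / 5 : ℝ) : ℂ) by push_cast; ring, Complex.norm_real]; norm_num
    rw [this]; linarith
  have hcb : c ∈ ball (0 : ℂ) 1 := by rw [mem_ball_zero_iff]; linarith
  have hharn := H226.harnack_centre hHd hpos hcb
  have e0 : z + (5 / 12 : ℂ) * 0 = z := by ring
  have ec : z + (5 / 12 : ℂ) * c = 0 := by rw [hc]; ring
  rw [hHre 0 h0m, hHre c hcb, e0, ec] at hharn
  set x := Real.log (2 * M) - Real.log ‖G z‖ with hx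
  set y := Real.log (2 * M) - Real.log ‖G 0‖ with hy
  have hy0 : 0 ≤ y := by
    have h := (hpos c hcb).le
    rw [hHre c hcb, ec] at h
    exact h
  have hx0 : 0 < x := by
    have h := hpos 0 h0m
    rw [hHre 0 h0m, e0] at h
    exact h
  have hxy : x ≤ 9 * y := by nlinarith [norm_nonneg c]
  have hGz : 0 < ‖G z‖ := norm_pos_iff.2 (h0 z (by
    rw [mem_closedBall_zero_iff]; linarith))
  have h2M : 0 < 2 * M := by linarith
  have h7 : Real.log (2 * M * (‖G 0‖ / (2 * M)) ^ 9) ≤ Real.log ‖G z‖ := by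
    rw [Real.log_mul h2M.ne' (by positivity), Real.log_pow, Real.log_div hG0.ne' h2M.ne']
    push_cast
    linarith
  exact (Real.log_le_log_iff (by positivity) hGz).1 h7

/-- one variable, quantitative: `n` is a bound for the number of zeros in the ball `3/4` -/
theorem quot_one {G P : ℂ → ℂ} {M N : ℝ} {n : ℕ} (hG : DifferentiableOn ℂ G (ball 0 1))
    (hP : DifferentiableOn ℂ P (ball 0 1)) (hM : ∀ z ∈ ball (0 : ℂ) 1, ‖G z‖ ≤ M)
    (hN : ∀ z ∈ ball (0 : ℂ) 1, ‖P z * G z‖ ≤ N) (hn : M * (3 / 4) ^ (n + 1) < ‖G 0‖)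
    {z : ℂ} (hz : ‖z‖ ≤ 1 / 3) :
    ‖P z‖ ≤ N * (11 / 4) ^ n / (2 * M * (‖G 0‖ / (2 * M)) ^ 9) := by
  have h0m : (0 : ℂ) ∈ ball (0 : ℂ) 1 := mem_ball_self one_pos
  have hM0' : 0 ≤ M := (norm_nonneg _).trans (hM 0 h0m)
  have hG0 : 0 < ‖G 0‖ := lt_of_le_of_lt (by positivity) hn
  have hM0 : 0 < M := hG0.trans_le (hM 0 h0m)
  have hN0 : 0 ≤ N := (norm_nonneg _).trans (hN 0 h0m)
  obtain ⟨G₁, k1, k2, k3, k4, k5⟩ := strip_zeros (θ := 3 / 4) (by norm_num) (by norm_num) n hG hM hn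
  have hlow := zero_free_lower k1 k2 k3 hz
  have hmono : 2 * M * (‖G 0‖ / (2 * M)) ^ 9 ≤ 2 * M * (‖G₁ 0‖ / (2 * M)) ^ 9 := by gcongr
  have hlow' := hmono.trans hlow
  have hp0 : 0 < 2 * M * (‖G 0‖ / (2 * M)) ^ 9 := by positivity
  -- maximum modulus
  have hmax : ‖P z * G₁ z‖ ≤ N * (11 / 4) ^ n := by
    have hsubc : closedBall (0 : ℂ) (7 / 8) ⊆ ball 0 1 := closedBall_subset_ball (by norm_num)
    have hd : DiffContOnCl ℂ (fun w => P w * G₁ w) (ball 0 (7 / 8)) := by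
      refine DifferentiableOn.diffContOnCl ?_
      rw [closure_ball _ (by norm_num)]
      exact (hP.mul k1).mono hsubc
    refine Complex.norm_le_of_forall_mem_frontier_norm_le isBounded_ball hd ?_
      (subset_closure (by rw [mem_ball_zero_iff]; linarith))
    intro w hw
    rw [frontier_ball _ (by norm_num), mem_sphere_zero_iff_norm] at hw
    have hwb : w ∈ ball (0 : ℂ) 1 := by rw [mem_ball_zero_iff, hw]; norm_num
    have h1 := k5 w hwb (by rw [hw]; norm_num)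
    rw [hw] at h1
    have e : ((7 / 8 : ℝ) - 3 / 4) / (1 - 7 / 8 * (3 / 4)) = 4 / 11 := by norm_num
    rw [e] at h1
    have h2 : ‖G₁ w‖ ≤ (11 / 4) ^ n * ‖G w‖ := by
      have h3 : ((11 : ℝ) / 4) ^ n * (4 / 11) ^ n = 1 := by rw [← mul_pow]; norm_num
      calc ‖G₁ w‖ = (11 / 4) ^ n * ((4 / 11) ^ n * ‖G₁ w‖) := by rw [← mul_assoc, h3, one_mul]
        _ ≤ _ := by gcongr
    calc ‖P w * G₁ w‖ = ‖P w‖ * ‖G₁ w‖ := norm_mul _ _
      _ ≤ ‖P w‖ * ((11 / 4) ^ n * ‖G w‖) := by gcongr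
      _ = (11 / 4) ^ n * ‖P w * G w‖ := by rw [norm_mul]; ring
      _ ≤ (11 / 4) ^ n * N := by gcongr; exact hN w hwb
      _ = _ := by ring
  rw [le_div_iff₀ hp0]
  calc ‖P z‖ * (2 * M * (‖G 0‖ / (2 * M)) ^ 9) ≤ ‖P z‖ * ‖G₁ z‖ := by gcongr
    _ = ‖P z * G₁ z‖ := (norm_mul _ _).symm
    _ ≤ _ := hmax

/-- **quotient lemma**, several variables -/
theorem quot {E : Type*} [NormedAddCommGroup E] [NormedSpace ℂ E] {G P : E → ℂ} {c : E}
    {R M N : ℝ} {n : ℕ} (hR : 0 < R) (hG : DifferentiableOn ℂ G (ball c R))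
    (hP : DifferentiableOn ℂ P (ball c R)) (hM : ∀ z ∈ ball c R, ‖G z‖ ≤ M)
    (hN : ∀ z ∈ ball c R, ‖P z * G z‖ ≤ N) (hn : M * (3 / 4) ^ (n + 1) < ‖G c‖)
    {z : E} (hz : ‖z - c‖ ≤ R / 3) :
    ‖P z‖ ≤ N * (11 / 4) ^ n / (2 * M * (‖G c‖ / (2 * M)) ^ 9) := by
  rcases eq_or_ne (z - c) 0 with h0 | h0
  · -- constant slice works as well
    have hmap : MapsTo (fun _ : ℂ => c) (ball (0 : ℂ) 1) (ball c R) :=
      fun _ _ => mem_ball_self hR
    have h := quot_one (G := fun _ : ℂ => G c) (P := fun _ : ℂ => P c) (M := M) (N := N) (n := n)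
      (differentiableOn_const _) (differentiableOn_const _) (fun _ _ => hM c (mem_ball_self hR))
      (fun _ _ => hN c (mem_ball_self hR)) hn (z := 0) (by simp)
    rw [sub_eq_zero] at h0
    rw [h0]
    exact h
  have hv : 0 < ‖z - c‖ := norm_pos_iff.2 h0
  set φ : ℂ → E := fun t => c + t • ((3 : ℂ) • (z - c)) with hφ
  have hmap : MapsTo φ (ball (0 : ℂ) 1) (ball c R) := by
    intro t ht
    rw [mem_ball_zero_iff] at ht
    rw [mem_ball, dist_eq_norm, hφ]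
    simp only [add_sub_cancel_left, norm_smul]
    have h3 : ‖(3 : ℂ)‖ = 3 := by norm_num
    rw [h3]
    calc ‖t‖ * (3 * ‖z - c‖) < 1 * (3 * ‖z - c‖) := by
          apply mul_lt_mul_of_pos_right ht; positivity
      _ ≤ R := by linarith
  have hφd : Differentiable ℂ φ := by
    rw [hφ]; fun_prop
  have e0 : φ 0 = c := by rw [hφ]; simp
  have e1 : φ (1 / 3) = z := by
    rw [hφ]
    simp only
    rw [smul_smul, show (1 / 3 : ℂ) * 3 = 1 by norm_num, one_smul, add_sub_cancel]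
  have h := quot_one (G := G ∘ φ) (P := P ∘ φ) (M := M) (N := N) (n := n)
    (hG.comp hφd.differentiableOn hmap) (hP.comp hφd.differentiableOn hmap)
    (fun t ht => hM _ (hmap ht)) (fun t ht => hN _ (hmap ht)) (by simpa [e0] using hn)
    (z := 1 / 3) (by norm_num)
  simp only [Function.comp_apply, e0, e1] at h
  exact h

/-- **quotient lemma**, existential bound -/
theorem exists_quot {M N δ : ℝ} (hM : 0 < M) (hN : 0 ≤ N) (hδ : 0 < δ) : ∃ B, 0 < B ∧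
    ∀ {E : Type*} [NormedAddCommGroup E] [NormedSpace ℂ E] {G P : E → ℂ} {c : E} {R : ℝ}, 0 < R →
      DifferentiableOn ℂ G (ball c R) → DifferentiableOn ℂ P (ball c R) →
      (∀ z ∈ ball c R, ‖G z‖ ≤ M) → (∀ z ∈ ball c R, ‖P z * G z‖ ≤ N) → δ ≤ ‖G c‖ →
      ∀ z, ‖z - c‖ ≤ R / 3 → ‖P z‖ ≤ B := by
  obtain ⟨n, hn⟩ : ∃ n : ℕ, M * (3 / 4) ^ (n + 1) < δ := by
    have h1 : Tendsto (fun n : ℕ => M * ((3 : ℝ) / 4) ^ (n + 1)) atTop (𝓝 (M * 0)) :=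
      ((tendsto_pow_atTop_nhds_zero_of_lt_one (by norm_num) (by norm_num)).comp
        (tendsto_add_atTop_nat 1)).const_mul M
    rw [mul_zero] at h1
    exact (h1.eventually_lt_const hδ).exists
  have hd : 0 < 2 * M * (δ / (2 * M)) ^ 9 := by positivity
  refine ⟨N * (11 / 4) ^ n / (2 * M * (δ / (2 * M)) ^ 9) + 1, by positivity, ?_⟩
  intro E _ _ G P c R hR hG hP hGM hPN hc z hz
  have h := quot hR hG hP hGM hPN (hn.trans_le hc) hz
  have h2 : N * (11 / 4) ^ n / (2 * M * (‖G c‖ / (2 * M)) ^ 9) ≤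
      N * (11 / 4) ^ n / (2 * M * (δ / (2 * M)) ^ 9) := by gcongr
  linarith

end Vale.Agent.P097.H561.Quot
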