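import Vale.Agent.P097.H561.Quot
import Vale.Agent.P097.H394.Zone
import Vale.Agent.P097.H881.Sc2

/-!
# P097 / case [c] / STEP: transport of (mid-level + bounded line) along a chain of balls

R2 points (`deriv F (th z) = 0`) are allowed; the position `p` of the line is included.
-/

set_option linter.all false

open Complex Metric Filter Topology Set
open scoped ComplexConjugate

namespace Vale.Agent.P097.H561.Step

open Vale.Agent.P097.TC Vale.Agent.P097.H881
open Vale.Agent.P097.H264 (LS LS_one)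

variable {E : Type*} [NormedAddCommGroup E] [NormedSpace ℂ E]

/-- Harnack on one ball -/
theorem harn {f : E → ℂ} {c w : E} {R : ℝ} (hR : 0 < R) (hf : DifferentiableOn ℂ f (ball c R))
    (hpos : ∀ z ∈ ball c R, 0 < (f z).re) (hw : ‖w - c‖ ≤ R / 2) :
    (f c).re ≤ 3 * (f w).re := by
  set φ : ℂ → E := fun t => c + t • ((2 : ℂ) • (w - c)) with hφ
  have hmap : MapsTo φ (ball (0 : ℂ) 1) (ball c R) := by
    intro t ht
    rw [mem_ball_zero_iff] at ht
    rw [mem_ball, dist_eq_norm, hφ]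
    simp only [add_sub_cancel_left, norm_smul]
    have h3 : ‖(2 : ℂ)‖ = 2 := by norm_num
    rw [h3]
    have h4 : 2 * ‖w - c‖ ≤ R := by linarith
    rcases eq_or_lt_of_le (norm_nonneg (w - c)) with h5 | h5
    · rw [← h5]; simpa using hR
    · calc ‖t‖ * (2 * ‖w - c‖) < 1 * (2 * ‖w - c‖) := by
            apply mul_lt_mul_of_pos_right ht; positivity
        _ ≤ R := by linarith
  have hφd : Differentiable ℂ φ := by rw [hφ]; fun_prop
  have e0 : φ 0 = c := by rw [hφ]; simp
  have e1 : φ (1 / 2) = w := by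
    rw [hφ]
    simp only
    rw [smul_smul, show (1 / 2 : ℂ) * 2 = 1 by norm_num, one_smul, add_sub_cancel]
  have hc : (1 / 2 : ℂ) ∈ ball (0 : ℂ) 1 := by rw [mem_ball_zero_iff]; norm_num
  have h := H226.harnack_centre (H := f ∘ φ) (hf.comp hφd.differentiableOn hmap)
    (fun z hz => hpos _ (hmap hz)) hc
  simp only [Function.comp_apply, e0, e1] at h
  have hn : ‖(1 / 2 : ℂ)‖ = 1 / 2 := by norm_num
  rw [hn] at h
  linarith

/-- displacement of a strip valued function on one ball -/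
theorem disp {th : E → ℂ} {c w : E} {R H : ℝ} (hR : 0 < R) (hH : 0 < H)
    (hth : DifferentiableOn ℂ th (ball c R)) (hm : ∀ z ∈ ball c R, |(th z).im| < H)
    (hw : ‖w - c‖ ≤ R / 2) : ‖th w - th c‖ ≤ 4 * H := by
  set φ : ℂ → E := fun t => c + t • ((2 : ℂ) • (w - c)) with hφ
  have hmap : MapsTo φ (ball (0 : ℂ) 1) (ball c R) := by
    intro t ht
    rw [mem_ball_zero_iff] at ht
    rw [mem_ball, dist_eq_norm, hφ]
    simp only [add_sub_cancel_left, norm_smul]
    have h3 : ‖(2 : ℂ)‖ = 2 := by norm_num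
    rw [h3]
    rcases eq_or_lt_of_le (norm_nonneg (w - c)) with h5 | h5
    · rw [← h5]; simpa using hR
    · calc ‖t‖ * (2 * ‖w - c‖) < 1 * (2 * ‖w - c‖) := by
            apply mul_lt_mul_of_pos_right ht; positivity
        _ ≤ R := by linarith
  have hφd : Differentiable ℂ φ := by rw [hφ]; fun_prop
  have e0 : φ 0 = c := by rw [hφ]; simp
  have e1 : φ (1 / 2) = w := by
    rw [hφ]
    simp only
    rw [smul_smul, show (1 / 2 : ℂ) * 2 = 1 by norm_num, one_smul, add_sub_cancel]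
  have hcm : c ∈ ball c R := mem_ball_self hR
  have h := Complex.borelCaratheodory_zero (f := fun t => -I * (th (φ t) - th c)) (M := 2 * H)
    (R := 1) (z := 1 / 2) (by positivity)
    (((hth.comp hφd.differentiableOn hmap).sub_const _).const_mul _)
    (by
      intro t ht
      have h1 := hm _ (hmap ht)
      have h2 := hm _ hcm
      rw [abs_lt] at h1 h2
      show (-I * (th (φ t) - th c)).re ≤ 2 * H
      have : (-I * (th (φ t) - th c)).re = (th (φ t)).im - (th c).im := by simp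
      rw [this]; linarith [h1.2, h2.1]) one_pos (by rw [mem_ball_zero_iff]; norm_num)
    (by simp [e0])
  have hn : ‖(1 / 2 : ℂ)‖ = 1 / 2 := by norm_num
  rw [hn] at h
  have h2 : ‖-I * (th (φ (1 / 2)) - th c)‖ = ‖th w - th c‖ := by
    rw [e1, norm_mul, norm_neg, norm_I, one_mul]
  rw [h2] at h
  calc ‖th w - th c‖ ≤ 2 * (2 * H) * (1 / 2) / (1 - 1 / 2) := h
    _ = 4 * H := by ring

/-- the functions of the world on an open set `U` -/
structure Fun (H : ℝ) (F q : ℂ → ℂ) (U : Set E) (al p th : E → ℂ) : Prop where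
  dal : DifferentiableOn ℂ al U
  dp : DifferentiableOn ℂ p U
  dth : DifferentiableOn ℂ th U
  mem : ∀ z ∈ U, th z ∈ Sb H
  inc : ∀ z ∈ U, Mi F q (al z) (p z) (th z) = 0
  smp : ∀ z ∈ U, deriv (Mi F q (al z) (p z)) (th z) ≠ 0

theorem Fun.mono {H : ℝ} {F q : ℂ → ℂ} {U V : Set E} {al p th : E → ℂ}
    (h : Fun H F q U al p th) (hV : V ⊆ U) : Fun H F q V al p th :=
  ⟨h.dal.mono hV, h.dp.mono hV, h.dth.mono hV, fun z hz => h.mem z (hV hz),
    fun z hz => h.inc z (hV hz), fun z hz => h.smp z (hV hz)⟩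

/-- local bounds of the curve, uniform in the real part -/
def Bdd (H : ℝ) (F q : ℂ → ℂ) : Prop := ∀ c > 0, ∃ M : ℝ, ∀ x : ℂ, |x.im| ≤ H - c →
  ‖F x - 2 * Real.pi * x‖ ≤ M ∧ ‖deriv F x‖ ≤ M ∧ ‖q x‖ ≤ M ∧ ‖deriv q x‖ ≤ M

/-- a chain of balls of constant radius -/
structure Chn (U : Set E) (R : ℝ) (n : ℕ) (z : ℕ → E) : Prop where
  R0 : 0 < R
  sub : ∀ i ≤ n, ball (z i) R ⊆ U
  st : ∀ i < n, ‖z (i + 1) - z i‖ ≤ R / 160

theorem exp_two_sin {x : ℂ} (h : exp (2 * I * x) = 1) : Complex.sin x = 0 := by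
  have h1 : exp (x * I) * exp (x * I) = 1 := by
    rw [← Complex.exp_add, ← h]; congr 1; ring
  have h2 : exp (-x * I) = exp (x * I) := by
    have h3 : exp (-x * I) * exp (x * I) = 1 := by
      rw [← Complex.exp_add]; simp
    have h4 : exp (x * I) ≠ 0 := Complex.exp_ne_zero _
    exact mul_right_cancel₀ h4 (h3.trans h1.symm)
  rw [Complex.sin, h2, sub_self, zero_mul, zero_div]

variable {Λ H : ℝ} {F q : ℂ → ℂ} {U : Set E} {al p th : E → ℂ}

theorem Fun.r2 (W : Fun H F q U al p th) (hC : Cv Λ H F q) {z : E} (hz : z ∈ U)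
    (h : exp (2 * I * (al z - F (th z))) = 1) : deriv F (th z) = 0 := by
  have hs := exp_two_sin h
  by_contra hF
  have h1 := W.inc z hz
  simp only [Mi, hs, mul_zero, add_zero] at h1
  have h2 : q (th z) * Complex.cos (al z - F (th z)) - p z = 0 := by
    rcases mul_eq_zero.1 h1 with h' | h'
    · exact absurd h' hF
    · exact h'
  have h3 := (H394.hasDeriv_Mi hC (al z) (p z) (W.mem z hz)).deriv
  rw [h2, hs] at h3
  exact W.smp z hz (by rw [h3]; ring)

theorem mid_step (W : Fun H F q U al p th) {c w : E} {R : ℝ} (hR : 0 < R) (hU : ball c R ⊆ U)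
    (hw : ‖w - c‖ ≤ R / 2) : H - |(th c).im| ≤ 3 * (H - |(th w).im|) := by
  have hm : ∀ z ∈ ball c R, |(th z).im| < H := fun z hz => W.mem z (hU hz)
  have hd := W.dth.mono hU
  have h1 := harn (f := fun z => (H : ℂ) + I * th z) hR ((hd.const_mul I).const_add _)
    (fun z hz => by
      have := (abs_lt.1 (hm z hz)).2
      simp; linarith) hw
  have h2 := harn (f := fun z => (H : ℂ) - I * th z) hR ((hd.const_mul I).const_sub _)
    (fun z hz => by
      have := (abs_lt.1 (hm z hz)).1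
      simp; linarith) hw
  simp at h1 h2
  have hwm := abs_lt.1 (hm w (by rw [mem_ball, dist_eq_norm]; linarith))
  rcases abs_cases (th w).im with h | h
  · rw [h.1]; linarith [le_abs_self (th c).im, neg_le_abs (th c).im]
  · rw [h.1]; linarith [le_abs_self (th c).im, neg_le_abs (th c).im]

theorem mid_chain (W : Fun H F q U al p th) {R : ℝ} {n : ℕ} {z : ℕ → E} (hz : Chn U R n z) :
    ∀ i ≤ n, H - |(th (z 0)).im| ≤ 3 ^ i * (H - |(th (z i)).im|) := by
  intro i
  induction i with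
  | zero => intro _; simp
  | succ i ih =>
    intro hi
    have h1 := ih (by omega)
    have h2 := mid_step W hz.R0 (hz.sub i (by omega)) (w := z (i + 1))
      ((hz.st i (by omega)).trans (by linarith [hz.R0]))
    calc _ ≤ 3 ^ i * (H - |(th (z i)).im|) := h1
      _ ≤ 3 ^ i * (3 * (H - |(th (z (i + 1))).im|)) := by gcongr
      _ = _ := by ring

theorem mid_half (W : Fun H F q U al p th) {R : ℝ} {n : ℕ} {z : ℕ → E} (hz : Chn U R n z)
    {i : ℕ} (hi : i ≤ n) {w : E} (hw : ‖w - z i‖ ≤ R / 2) :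
    H - |(th (z 0)).im| ≤ 3 ^ (n + 1) * (H - |(th w).im|) := by
  have h1 := mid_chain W hz i hi
  have h2 := mid_step W hz.R0 (hz.sub i hi) hw
  have hR := hz.R0
  have hmem : w ∈ U := hz.sub i hi (by rw [mem_ball, dist_eq_norm]; linarith)
  have h0 : 0 < H - |(th w).im| := sub_pos.2 (W.mem w hmem)
  calc _ ≤ 3 ^ i * (H - |(th (z i)).im|) := h1
    _ ≤ 3 ^ i * (3 * (H - |(th w).im|)) := by gcongr
    _ = 3 ^ (i + 1) * (H - |(th w).im|) := by ring
    _ ≤ _ := by
      have : (3 : ℝ) ^ (i + 1) ≤ 3 ^ (n + 1) := pow_le_pow_right₀ (by norm_num) (by omega)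
      gcongr

theorem disp_chain (W : Fun H F q U al p th) (hH : 0 < H) {R : ℝ} {n : ℕ} {z : ℕ → E}
    (hz : Chn U R n z) : ∀ i ≤ n, ‖th (z i) - th (z 0)‖ ≤ i * (4 * H) := by
  intro i
  induction i with
  | zero => intro _; simp
  | succ i ih =>
    intro hi
    have h1 := ih (by omega)
    have h2 := disp (th := th) hz.R0 hH (W.dth.mono (hz.sub i (by omega)))
      (fun w hw => W.mem w (hz.sub i (by omega) hw)) (w := z (i + 1))
      ((hz.st i (by omega)).trans (by linarith [hz.R0]))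
    push_cast
    calc ‖th (z (i + 1)) - th (z 0)‖ = ‖(th (z (i + 1)) - th (z i)) + (th (z i) - th (z 0))‖ := by
          ring_nf
      _ ≤ _ := norm_add_le _ _
      _ ≤ _ := by linarith

theorem norm_cos_le (w : ℂ) : ‖Complex.cos w‖ ≤ Real.exp |w.im| := by
  rw [Complex.cos, norm_div, Complex.norm_ofNat, div_le_iff₀ (by norm_num)]
  refine (norm_add_le _ _).trans ?_
  rw [Complex.norm_exp, Complex.norm_exp]
  have h1 : (w * I).re = -w.im := by simp
  have h2 : (-w * I).re = w.im := by simp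
  rw [h1, h2]
  have h3 : Real.exp (-w.im) ≤ Real.exp |w.im| := Real.exp_le_exp.2 (neg_le_abs _)
  have h4 : Real.exp (w.im) ≤ Real.exp |w.im| := Real.exp_le_exp.2 (le_abs_self _)
  linarith

theorem norm_sin_le (w : ℂ) : ‖Complex.sin w‖ ≤ Real.exp |w.im| := by
  rw [Complex.sin, norm_div, Complex.norm_ofNat, div_le_iff₀ (by norm_num), norm_mul, norm_I,
    mul_one]
  refine (norm_sub_le _ _).trans ?_
  rw [Complex.norm_exp, Complex.norm_exp]
  have h1 : (w * I).re = -w.im := by simp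
  have h2 : (-w * I).re = w.im := by simp
  rw [h1, h2]
  have h3 : Real.exp (-w.im) ≤ Real.exp |w.im| := Real.exp_le_exp.2 (neg_le_abs _)
  have h4 : Real.exp (w.im) ≤ Real.exp |w.im| := Real.exp_le_exp.2 (le_abs_self _)
  linarith

/-- **STEP** -/
theorem step (hC : Cv Λ H F q) (hB : Bdd H F q) {c₀ δ C₀ : ℝ} (hc₀ : 0 < c₀) (hδ : 0 < δ)
    (n : ℕ) : ∃ c₁ > 0, ∃ C₁ > 0, ∀ {E : Type*} [NormedAddCommGroup E] [NormedSpace ℂ E]
      {U : Set E} {al p th : E → ℂ}, Fun H F q U al p th → ∀ {R : ℝ} {z : ℕ → E},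
      Chn U R n z → |(th (z 0)).im| ≤ H - c₀ → δ ≤ ‖deriv F (th (z 0))‖ →
      |(al (z 0)).im| ≤ C₀ → ∀ w, ‖w - z n‖ ≤ R / 640 →
      |(th w).im| ≤ H - c₁ ∧ |(al w).im| ≤ C₁ ∧ ‖p w‖ ≤ C₁ ∧ ‖al w - al (z 0)‖ ≤ C₁ ∧
        ‖th w - th (z 0)‖ ≤ C₁ := by
  have hH : 0 < H := hC.b0
  set c₁ : ℝ := c₀ / 3 ^ (n + 2) with hc₁
  have hc₁0 : 0 < c₁ := by positivity
  obtain ⟨M₀, hM₀⟩ := hB c₁ hc₁0
  set M : ℝ := max M₀ 1 with hM
  have hM1 : 1 ≤ M := le_max_right _ _
  have hM0 : 0 < M := lt_of_lt_of_le one_pos hM1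
  have hMb : ∀ x : ℂ, |x.im| ≤ H - c₁ → ‖F x - 2 * Real.pi * x‖ ≤ M ∧ ‖deriv F x‖ ≤ M ∧
      ‖q x‖ ≤ M ∧ ‖deriv q x‖ ≤ M := fun x hx =>
    ⟨(hM₀ x hx).1.trans (le_max_left _ _), (hM₀ x hx).2.1.trans (le_max_left _ _),
      (hM₀ x hx).2.2.1.trans (le_max_left _ _), (hM₀ x hx).2.2.2.trans (le_max_left _ _)⟩
  have hFim : ∀ x : ℂ, |x.im| ≤ H - c₁ → |(F x).im| ≤ M + 2 * Real.pi * H := by
    intro x hx
    have h1 := (hMb x hx).1
    have h2 : (F x).im = (F x - 2 * Real.pi * x).im + 2 * Real.pi * x.im := by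
      have : (2 * Real.pi * x : ℂ).im = 2 * Real.pi * x.im := by
        rw [show (2 * Real.pi * x : ℂ) = ((2 * Real.pi : ℝ) : ℂ) * x by push_cast; ring,
          Complex.im_ofReal_mul]
      rw [Complex.sub_im, this]; ring
    rw [h2]
    refine (abs_add_le _ _).trans ?_
    have h3 : |2 * Real.pi * x.im| ≤ 2 * Real.pi * H := by
      rw [abs_mul, abs_of_pos (by positivity : (0 : ℝ) < 2 * Real.pi)]
      gcongr
      linarith
    linarith [(Complex.abs_im_le_norm (F x - 2 * Real.pi * x))]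
  have hKR := KR_one
  have hLS : 0 ≤ LS := by linarith [LS_one]
  set S₀ : ℝ := 1 + 2 * (max C₀ 0 + (M + 2 * Real.pi * H)) + max (Real.log (M / δ)) 0 with hS₀
  have hS₀1 : 1 ≤ S₀ := by
    have := Real.pi_pos
    have h1 : 0 ≤ max C₀ 0 := le_max_right _ _
    have h2 : 0 ≤ max (Real.log (M / δ)) 0 := le_max_right _ _
    have h3 : 0 ≤ 2 * Real.pi * H := by positivity
    linarith
  set S₁ : ℝ := KR ^ (n + 1) * S₀ with hS₁
  have hK1 : 1 ≤ KR ^ (n + 1) := one_le_pow₀ hKR
  have hS₁0 : 0 < S₁ := by positivity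
  set S₂ : ℝ := (1 + LS) * S₁ with hS₂
  have hS₂0 : 0 ≤ S₂ := by positivity
  set h₀ : ℝ := S₀ + S₂ with hh₀
  set N : ℝ := M * (M * Real.exp h₀) + M * Real.exp h₀ with hN
  obtain ⟨B, hB0, hBq⟩ := Quot.exists_quot (M := M) (N := N) (δ := M * Real.exp (-S₁)) hM0
    (by positivity) (by positivity)
  refine ⟨c₁, hc₁0, h₀ + (M + 2 * Real.pi * H) + B + (S₂ + 2 * M + 2 * Real.pi * ((n + 1) * (4 * H)))
    + (n + 1) * (4 * H) , by positivity, ?_⟩
  intro E _ _ U al p th W R z hz hmid hGδ hal w hw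
  have hR := hz.R0
  -- the mid-level set
  set U' : Set E := {y | ∃ i ≤ n, ‖y - z i‖ < R / 2} with hU'
  have hU'U : U' ⊆ U := by
    rintro y ⟨i, hi, hy⟩
    exact hz.sub i hi (by rw [mem_ball, dist_eq_norm]; linarith)
  have hmidU : ∀ y ∈ U', |(th y).im| ≤ H - c₁ := by
    rintro y ⟨i, hi, hy⟩
    have h1 := mid_half W hz hi hy.le
    have h2 : c₀ ≤ 3 ^ (n + 1) * (H - |(th y).im|) := by linarith
    have h3 : c₁ ≤ H - |(th y).im| := by
      rw [hc₁, div_le_iff₀ (by positivity)]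
      have h4 : 0 < H - |(th y).im| := sub_pos.2 (W.mem y (hU'U ⟨i, hi, hy⟩))
      calc c₀ ≤ 3 ^ (n + 1) * (H - |(th y).im|) := h2
        _ ≤ 3 ^ (n + 2) * (H - |(th y).im|) := by
          have : (3 : ℝ) ^ (n + 1) ≤ 3 ^ (n + 2) := pow_le_pow_right₀ (by norm_num) (by omega)
          gcongr
        _ = _ := by ring
    linarith
  set g : E → ℂ := fun y => 2 * I * (al y - F (th y)) with hg
  set G : E → ℂ := fun y => deriv F (th y) with hG
  have hFd := hC.dF
  have hRG : RG U' M g G := by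
    refine ⟨?_, ?_, ?_, ?_⟩
    · exact ((W.dal.mono hU'U).sub (hFd.comp (W.dth.mono hU'U)
        (fun y hy => W.mem y (hU'U hy)))).const_mul _
    · exact (hFd.deriv (H394.isOpen_Sb H)).comp (W.dth.mono hU'U)
        (fun y hy => W.mem y (hU'U hy))
    · intro y hy h1
      exact W.r2 hC (hU'U hy) h1
    · intro y hy
      exact (hMb _ (hmidU y hy)).2.1
  have hz0 : z 0 ∈ U' := ⟨0, Nat.zero_le _, by rw [sub_self, norm_zero]; positivity⟩
  have hG0 : 0 < ‖G (z 0)‖ := hδ.trans_le hGδ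
  have hgre : ∀ y, (g y).re = -(2 * (al y - F (th y)).im) := by
    intro y; rw [hg]; simp
  have hSt0 : St M g G (z 0) ≤ S₀ := by
    unfold St
    have h1 : |(g (z 0)).re| ≤ 2 * (max C₀ 0 + (M + 2 * Real.pi * H)) := by
      rw [hgre, abs_neg, abs_mul, abs_two, Complex.sub_im]
      have h2 := hFim _ (hmidU _ hz0)
      have h3 : |(al (z 0)).im - (F (th (z 0))).im| ≤ max C₀ 0 + (M + 2 * Real.pi * H) :=
        (abs_sub _ _).trans (add_le_add (hal.trans (le_max_left _ _)) h2)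
      linarith
    have h4 : Real.log (M / ‖G (z 0)‖) ≤ max (Real.log (M / δ)) 0 := by
      refine le_trans ?_ (le_max_left _ _)
      apply Real.log_le_log (by positivity)
      gcongr
    linarith
  -- the chain
  have hch := hRG.chain (z := fun i => z (min i n)) (R := fun i => if i ≤ n then R / 2 else R / 4)
    (n := n + 1) (fun i hi => by split_ifs <;> positivity)
    (fun i hi => by
      have h1 : i ≤ n := by omega
      rw [if_pos h1]
      split_ifs <;> linarith)
    (fun i hi => by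
      intro y hy
      rw [mem_ball, dist_eq_norm] at hy
      refine ⟨min i n, min_le_right _ _, lt_of_lt_of_le hy ?_⟩
      split_ifs <;> linarith)
    (fun i hi => by
      have h1 : i ≤ n := by omega
      rw [if_pos h1, min_eq_left h1]
      rcases h1.lt_or_eq with h2 | h2
      · rw [min_eq_left (by omega : i + 1 ≤ n)]
        refine (hz.st i h2).trans (by linarith)
      · rw [min_eq_right (by omega : n ≤ i + 1), h2, sub_self, norm_zero]; positivity)
    (by simpa using (norm_pos_iff.1 hG0))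
  obtain ⟨b, hb1, hb2, hb3, hb4⟩ := hch
  simp only [show ¬ (n + 1 ≤ n) by omega, if_false, min_eq_right (Nat.le_succ n),
    Nat.zero_min] at hb1 hb3 hb4
  have hbz : ‖b - z n‖ ≤ R / 320 := by linarith
  have hSb : St M g G b ≤ S₁ := hb3.trans (by rw [hS₁]; gcongr)
  have hgb : ‖g b - g (z 0)‖ ≤ S₁ := by
    refine hb4.trans ?_
    have h1 : (0 : ℝ) ≤ St M g G (z 0) := by linarith [St_pos hRG hz0 (norm_pos_iff.1 hG0)]
    calc (KR ^ (n + 1) - 1) * St M g G (z 0) ≤ KR ^ (n + 1) * St M g G (z 0) := by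
          gcongr; linarith
      _ ≤ _ := by rw [hS₁]; gcongr
  -- ball around b
  have hsub1 : ball b (159 / 320 * R) ⊆ U' := by
    intro y hy
    rw [mem_ball, dist_eq_norm] at hy
    refine ⟨n, le_rfl, ?_⟩
    have := norm_sub_le_norm_sub_add_norm_sub y b (z n)
    linarith
  have hbU' : b ∈ U' := hsub1 (mem_ball_self (by positivity))
  have hball : ∀ y ∈ ball b (R / 65), ‖g y - g b‖ ≤ LS * S₁ := by
    intro y hy
    rw [mem_ball, dist_eq_norm] at hy
    have h1 := (hRG.mono hsub1).step (c := b) (z := y) (by positivity) hb2 (by linarith)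
    exact h1.trans (mul_le_mul_of_nonneg_left hSb hLS)
  have hsub2 : ball b (R / 65) ⊆ U' := (ball_subset_ball (by linarith)).trans hsub1
  have hgy : ∀ y ∈ ball b (R / 65), ‖g y - g (z 0)‖ ≤ S₂ := by
    intro y hy
    calc ‖g y - g (z 0)‖ = ‖(g y - g b) + (g b - g (z 0))‖ := by ring_nf
      _ ≤ ‖g y - g b‖ + ‖g b - g (z 0)‖ := norm_add_le _ _
      _ ≤ LS * S₁ + S₁ := add_le_add (hball y hy) hgb
      _ = S₂ := by rw [hS₂]; ring
  have hdim : ∀ y ∈ ball b (R / 65), |(al y - F (th y)).im| ≤ h₀ := by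
    intro y hy
    have h1 := hgy y hy
    have h2 : |(g y).re - (g (z 0)).re| ≤ S₂ := by
      rw [← Complex.sub_re]; exact (Complex.abs_re_le_norm _).trans h1
    have h3 : |(g (z 0)).re| ≤ S₀ := by
      have h4 := hSt0
      unfold St at h4
      have h5 : 0 ≤ Real.log (M / ‖G (z 0)‖) :=
        Real.log_nonneg ((one_le_div hG0).2 (hRG.bd _ hz0))
      linarith
    have h6 : |(g y).re| ≤ S₂ + S₀ := by
      have : (g y).re = ((g y).re - (g (z 0)).re) + (g (z 0)).re := by ring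
      rw [this]; exact (abs_add_le _ _).trans (add_le_add h2 h3)
    rw [hgre, abs_neg, abs_mul, abs_two] at h6
    have h7 : 0 ≤ |(al y - F (th y)).im| := abs_nonneg _
    linarith
  -- the position
  have hPG : ∀ y ∈ ball b (R / 65), ‖p y * G y‖ ≤ N := by
    intro y hy
    have hyU := hsub2 hy
    have h1 := W.inc y (hU'U hyU)
    obtain ⟨-, k2, k3, k4⟩ := hMb _ (hmidU y hyU)
    have h2 : p y * G y = G y * (q (th y) * Complex.cos (al y - F (th y))) +
        deriv q (th y) * Complex.sin (al y - F (th y)) := by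
      simp only [Mi] at h1
      rw [hG]
      simp only
      linear_combination -h1
    rw [h2]
    refine (norm_add_le _ _).trans ?_
    rw [norm_mul, norm_mul, norm_mul]
    have h3 := (norm_cos_le (al y - F (th y))).trans (Real.exp_le_exp.2 (hdim y hy))
    have h4 := (norm_sin_le (al y - F (th y))).trans (Real.exp_le_exp.2 (hdim y hy))
    rw [hN]
    have k2' : ‖G y‖ ≤ M := k2
    gcongr
  have hGb : M * Real.exp (-S₁) ≤ ‖G b‖ := by
    have hGb0 : 0 < ‖G b‖ := norm_pos_iff.2 hb2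
    have h1 : Real.log (M / ‖G b‖) ≤ S₁ := by
      have h2 := hSb
      unfold St at h2
      linarith [abs_nonneg (g b).re]
    have h3 : M / ‖G b‖ ≤ Real.exp S₁ := (Real.log_le_iff_le_exp (by positivity)).1 h1
    rw [div_le_iff₀ hGb0] at h3
    rw [Real.exp_neg]
    calc M * (Real.exp S₁)⁻¹ ≤ (Real.exp S₁ * ‖G b‖) * (Real.exp S₁)⁻¹ := by gcongr
      _ = ‖G b‖ := by field_simp
  have hwb : ‖w - b‖ ≤ R / 65 / 3 := by
    have := norm_sub_le_norm_sub_add_norm_sub w (z n) b
    rw [norm_sub_rev (z n) b] at this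
    linarith
  have hwball : w ∈ ball b (R / 65) := by
    rw [mem_ball, dist_eq_norm]; linarith
  have hpw : ‖p w‖ ≤ B := hBq (G := G) (P := p) (c := b) (R := R / 65) (by positivity)
    (hRG.hG.mono hsub2) ((W.dp.mono hU'U).mono hsub2) (fun y hy => hRG.bd y (hsub2 hy)) hPG hGb w
    hwb
  have hwU' : w ∈ U' := hsub2 hwball
  have hthw : ‖th w - th (z 0)‖ ≤ (n + 1) * (4 * H) := by
    have h1 := disp_chain W hH hz n le_rfl
    have h2 := disp (th := th) hR hH (W.dth.mono (hz.sub n le_rfl))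
      (fun y hy => W.mem y (hz.sub n le_rfl hy)) (w := w) (hw.trans (by linarith))
    calc ‖th w - th (z 0)‖ = ‖(th w - th (z n)) + (th (z n) - th (z 0))‖ := by ring_nf
      _ ≤ _ := norm_add_le _ _
      _ ≤ 4 * H + n * (4 * H) := add_le_add h2 h1
      _ = _ := by ring
  have hFw := hFim _ (hmidU w hwU')
  have hpos1 : 0 ≤ 2 * Real.pi * ((n + 1) * (4 * H)) := by positivity
  have hpos2 : (0 : ℝ) ≤ (n + 1) * (4 * H) := by positivity
  have hpos3 : 0 ≤ 2 * Real.pi * H := by positivity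
  refine ⟨hmidU w hwU', ?_, ?_, ?_, ?_⟩
  · have h1 : (al w).im = (al w - F (th w)).im + (F (th w)).im := by rw [Complex.sub_im]; ring
    rw [h1]
    refine (abs_add_le _ _).trans ?_
    linarith [hdim w hwball]
  · linarith
  · have h1 : al w - al (z 0) = ((al w - F (th w)) - (al (z 0) - F (th (z 0)))) +
        (F (th w) - 2 * Real.pi * th w) - (F (th (z 0)) - 2 * Real.pi * th (z 0)) +
        2 * Real.pi * (th w - th (z 0)) := by ring
    have h2 : ‖(al w - F (th w)) - (al (z 0) - F (th (z 0)))‖ ≤ S₂ := by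
      have h3 := hgy w hwball
      have h4 : g w - g (z 0) = 2 * I * ((al w - F (th w)) - (al (z 0) - F (th (z 0)))) := by
        rw [hg]; ring
      rw [h4, norm_mul, norm_mul, norm_I, Complex.norm_ofNat] at h3
      have h5 := norm_nonneg ((al w - F (th w)) - (al (z 0) - F (th (z 0))))
      linarith
    have h6 := (hMb _ (hmidU w hwU')).1
    have h7 := (hMb _ (hmidU _ hz0)).1
    have h8 : ‖(2 * Real.pi * (th w - th (z 0)) : ℂ)‖ ≤ 2 * Real.pi * ((n + 1) * (4 * H)) := by
      rw [norm_mul, show (2 * Real.pi : ℂ) = ((2 * Real.pi : ℝ) : ℂ) by push_cast; ring,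
        Complex.norm_real, Real.norm_of_nonneg (by positivity)]
      gcongr
    rw [h1]
    refine (norm_add_le _ _).trans ?_
    have h9 := (norm_sub_le ((al w - F (th w)) - (al (z 0) - F (th (z 0))) +
        (F (th w) - 2 * Real.pi * th w)) (F (th (z 0)) - 2 * Real.pi * th (z 0)))
    have h10 := norm_add_le ((al w - F (th w)) - (al (z 0) - F (th (z 0))))
      (F (th w) - 2 * Real.pi * th w)
    linarith
  · linarith

end Vale.Agent.P097.H561.Step
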