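import Vale.Agent.P097.H561.Step
import Vale.Agent.P097.TC.Defs5

/-!
# P097 / case [c] / STEP over the literal world `A5.W5`
-/

set_option linter.all false

open Complex Metric Filter Topology Set
open scoped ComplexConjugate

namespace Vale.Agent.P097.H561.Step

open Vale.Agent.P097.TC Vale.Agent.P097.H881 Vale.Agent.P097.A5

theorem bdd_of_gro {H : ℝ} {F q : ℂ → ℂ} (h : Gro H F q) : Bdd H F q := by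
  intro c hc
  obtain ⟨C, hC, hG⟩ := h 1 one_pos
  refine ⟨Real.exp (Real.exp (C * c ^ (-(1 : ℝ)))), fun x hx => ?_⟩
  have hx1 : x ∈ Sb H := by
    show |x.im| < H
    linarith
  have h1 : (H - |x.im|) ^ (-(1 : ℝ)) ≤ c ^ (-(1 : ℝ)) :=
    Real.rpow_le_rpow_of_nonpos hc (by linarith) (by norm_num)
  have h2 : Real.exp (C * (H - |x.im|) ^ (-(1 : ℝ))) ≤ Real.exp (C * c ^ (-(1 : ℝ))) :=
    Real.exp_le_exp.2 (mul_le_mul_of_nonneg_left h1 hC.le)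
  have h3 : Real.exp (C * c ^ (-(1 : ℝ))) ≤ Real.exp (Real.exp (C * c ^ (-(1 : ℝ)))) :=
    Real.exp_le_exp.2 ((le_add_of_nonneg_right zero_le_one).trans (Real.add_one_le_exp _))
  obtain ⟨k1, k2, k3, k4⟩ := hG x hx1
  exact ⟨k1.trans (h2.trans h3), k2.trans (h2.trans h3), k3.trans (Real.exp_le_exp.2 h2),
    k4.trans (Real.exp_le_exp.2 h2)⟩

theorem fun_of_w5 {Λ H : ℝ} {F q : ℂ → ℂ} {b m : ℝ} {Ψ : ℂ → ℂ} {Mj Mk B : Set (ℂ × ℂ)}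
    {A : Set ℝ} {P : ℝ → ℂ} {c k : ℝ → ℝ} {K y₀ u₀ σ s : ℝ} {al p th : ℂ × ℂ → ℂ} {J : ℂ → ℂ}
    (W : W5 Λ H F q b m Ψ Mj Mk B A P c k K y₀ u₀ σ s al p th J) :
    Fun H F q (Dm Mj Mk) al p th :=
  ⟨W.dal.mono (fun z hz => hz.1.2), W.dp.mono (fun z hz => hz.1.2), W.dth, W.mem, W.inc, W.smp⟩

theorem fun_of_w5B {Λ H : ℝ} {F q : ℂ → ℂ} {b m : ℝ} {Ψ : ℂ → ℂ} {Mj Mk B : Set (ℂ × ℂ)}
    {A : Set ℝ} {P : ℝ → ℂ} {c k : ℝ → ℝ} {K y₀ u₀ σ s : ℝ} {al p th : ℂ × ℂ → ℂ} {J : ℂ → ℂ}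
    (W : W5 Λ H F q b m Ψ Mj Mk B A P c k K y₀ u₀ σ s al p th J) :
    Fun H F q (B ∩ {z | z.2 ≠ 0}) al p th :=
  (fun_of_w5 W).mono (fun z hz => ⟨⟨W.Bj hz.1, W.Bk hz.1⟩, hz.2⟩)

/-- **STEP** in the literal world -/
theorem step_w5 {Λ H : ℝ} {F q : ℂ → ℂ} (hF : Crv Λ H F q) {c₀ δ C₀ : ℝ} (hc₀ : 0 < c₀)
    (hδ : 0 < δ) (n : ℕ) : ∃ c₁ > 0, ∃ C₁ > 0, ∀ {b m : ℝ} {Ψ : ℂ → ℂ} {Mj Mk B : Set (ℂ × ℂ)}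
    {A : Set ℝ} {P : ℝ → ℂ} {c k : ℝ → ℝ} {K y₀ u₀ σ s : ℝ} {al p th : ℂ × ℂ → ℂ} {J : ℂ → ℂ},
    W5 Λ H F q b m Ψ Mj Mk B A P c k K y₀ u₀ σ s al p th J → ∀ {R : ℝ} {z : ℕ → ℂ × ℂ},
      Chn (Dm Mj Mk) R n z → |(th (z 0)).im| ≤ H - c₀ → δ ≤ ‖deriv F (th (z 0))‖ →
      |(al (z 0)).im| ≤ C₀ → ∀ w, ‖w - z n‖ ≤ R / 640 →
      |(th w).im| ≤ H - c₁ ∧ |(al w).im| ≤ C₁ ∧ ‖p w‖ ≤ C₁ ∧ ‖al w - al (z 0)‖ ≤ C₁ ∧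
        ‖th w - th (z 0)‖ ≤ C₁ := by
  obtain ⟨c₁, h1, C₁, h2, h3⟩ := step hF.cv (bdd_of_gro hF.gro) (C₀ := C₀) hc₀ hδ n
  exact ⟨c₁, h1, C₁, h2, fun W R z hz => h3 (fun_of_w5 W) hz⟩

end Vale.Agent.P097.H561.Step
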